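import Vale.Agent.P154.K3

namespace Vale.Agent.P154

theorem F3_eq (a : Fin 3 → ℝ) (ha : a ∈ Sx 3) : bas true E3 (emb3 a) =
    E3.map (mono ⟨3, ∑ i, a i ^ 2, ∑ i, a i ^ 3, ∑ i, a i ^ 4⟩) := by
  rw [bas, gens3, ha.2]; norm_num

noncomputable def env3 : Env 3 where
  s := s3
  R := R3
  J := 8
  i0 := 0
  i2 := 1
  tab := tab3
  F := fun a => bas true E3 (emb3 a)
  lamf := lam3
  hq := by norm_num
  hJ := by norm_num
  hD := by decide
  hsort := sort3 E3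
  hL := fun τ hτ => by
    have := List.all_eq_true.1 tab3_ok τ hτ
    rw [Bool.and_eq_true, beq_iff_eq] at this
    obtain ⟨h1, h2, h3⟩ := tab3_sound this.1 this.2
    exact ⟨h1.trans (by norm_num), h2, h3⟩
  h0 := fun a ha => by rw [F3_eq a ha]; simp [dz, ei, dot, E3, mono, s3]
  h2 := fun a ha => by rw [F3_eq a ha]; simp [dz, ei, dot, E3, mono, s3]

theorem cm3 (a : Fin 3 → ℝ) (ha : a ∈ Sx 3) : cm 2 a = (∑ i, a i ^ 2) / 3 - 1 ∧
    cm 3 a = (∑ i, a i ^ 3) / 3 - (∑ i, a i ^ 2) + 2 := by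
  have h := ha.2
  simp only [cm, Fin.sum_univ_three] at h ⊢
  push_cast at h ⊢
  constructor
  · linear_combination (-2 / 3) * h
  · linear_combination h

noncomputable def psi3 (a : Fin 3 → ℝ) : ℝ := 10 * cm 3 a - 3 * cm 2 a ^ 2

theorem cert3 : Nonempty (Cert 3) := by
  have hps : ∀ a ∈ Sx 3, dz psv3 (env3.F a) = ((3 : ℕ) : ℝ) ^ env3.s.D * psi3 a := by
    intro a ha
    show dz psv3 (bas true E3 (emb3 a)) = ((3 : ℕ) : ℝ) ^ 6 * psi3 a
    rw [F3_eq a ha, psi3, (cm3 a ha).1, (cm3 a ha).2]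
    simp [dz, dot, E3, mono, psv3]; ring
  have hA : ∀ a ∈ Sx 3, dz Av3 (env3.F a) = ((3 : ℕ) : ℝ) ^ env3.s.D * chi a := by
    intro a ha
    show dz Av3 (bas true E3 (emb3 a)) = ((3 : ℕ) : ℝ) ^ 6 * cm 2 a
    rw [F3_eq a ha, (cm3 a ha).1]
    simp [dz, dot, E3, mono, Av3]; ring
  have hA2 : ∀ a ∈ Sx 3, dz A2v3 (env3.F a) = ((3 : ℕ) : ℝ) ^ env3.s.D * chi a ^ 2 := by
    intro a ha
    show dz A2v3 (bas true E3 (emb3 a)) = ((3 : ℕ) : ℝ) ^ 6 * cm 2 a ^ 2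
    rw [F3_eq a ha, (cm3 a ha).1]
    simp [dz, dot, E3, mono, A2v3]; ring
  refine mkCert env3 (by norm_num) psi3 ?_ ?_ psv3 Av3 A2v3 hps hA hA2 cs3a mu3a Sp3a kk3a
    (by decide +kernel) (by decide +kernel)
    (env3.lower cs3a Sp3a cc3a (by decide +kernel) (Av3.map fun b => -1 * b) _ ?_
      (H3a_eq ▸ H3a_ok)) (env3.two (G3a_eq ▸ G3a_ok)) (env3.one S3a_ok)
    cs3b mu3b Sp3b kk3b (by decide +kernel) (by decide +kernel)
    (env3.lower cs3b Sp3b cc3b (by decide +kernel) psv3 _ hps (H3b_eq ▸ H3b_ok))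
    (env3.two (G3b_eq ▸ G3b_ok)) (env3.one S3b_ok) ?_ ?_ ?_
  · exact (continuous_const.mul (cm_cont 3)).sub (continuous_const.mul ((cm_cont 2).pow 2))
  · refine fun v => cont_dz E3 (fun a e => mono (gens true (emb3 a)) e) (fun e => ?_) v
    simp only [mono, gens, emb3, cond_true]; fun_prop
  · intro a ha
    rw [dz_map, hA a ha]; push_cast; ring
  · intro lam h0 h1 a _
    simp only [psi3, cm_chan]
    have : 0 ≤ lam ^ 3 * (1 - lam) * cm 2 a ^ 2 := by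
      have := sub_nonneg.2 h1
      positivity
    nlinarith
  · intro j
    fin_cases j <;> simp [psi3, cm, Fin.sum_univ_three] <;> norm_num
  · simp [psi3, cm]

end Vale.Agent.P154
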