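import Vale.Agent.P154.K4

namespace Vale.Agent.P154

theorem F4_eq (a : Fin 4 → ℝ) (ha : a ∈ Sx 4) : bas true E4 (emb4 a) =
    E4.map (mono ⟨4, ∑ i, a i ^ 2, ∑ i, a i ^ 3, ∑ i, a i ^ 4⟩) := by
  rw [bas, gens4, ha.2]; norm_num

noncomputable def env4 : Env 4 where
  s := s4
  R := R4
  J := 12
  i0 := 0
  i2 := 1
  tab := tab4
  F := fun a => bas true E4 (emb4 a)
  lamf := lam4
  hq := by norm_num
  hJ := by norm_num
  hD := by decide
  hsort := sort4 E4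
  hL := fun τ hτ => by
    have := List.all_eq_true.1 tab4_ok τ hτ
    rw [Bool.and_eq_true] at this
    obtain ⟨h1, h2, h3⟩ := tab4_sound this.1
    exact ⟨h1.trans (by norm_num), h2, h3⟩
  h0 := fun a ha => by rw [F4_eq a ha]; simp [dz, ei, dot, E4, mono, s4]
  h2 := fun a ha => by rw [F4_eq a ha]; simp [dz, ei, dot, E4, mono, s4]

theorem cm4 (a : Fin 4 → ℝ) (ha : a ∈ Sx 4) : cm 2 a = (∑ i, a i ^ 2) / 4 - 1 ∧
    cm 3 a = (∑ i, a i ^ 3) / 4 - 3 / 4 * (∑ i, a i ^ 2) + 2 ∧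
    cm 4 a = (∑ i, a i ^ 4) / 4 - (∑ i, a i ^ 3) + 3 / 2 * (∑ i, a i ^ 2) - 3 := by
  have h := ha.2
  simp only [cm, Fin.sum_univ_four] at h ⊢
  push_cast at h ⊢
  refine ⟨?_, ?_, ?_⟩
  · linear_combination (-1 / 2) * h
  · linear_combination (3 / 4) * h
  · linear_combination (-1) * h

noncomputable def psi4 (a : Fin 4 → ℝ) : ℝ :=
  200 * cm 3 a - 84 * cm 2 a ^ 2 - 49 * cm 4 a + 45 * (cm 2 a * cm 3 a)

theorem cert4 : Nonempty (Cert 4) := by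
  have hps : ∀ a ∈ Sx 4, dz psv4 (env4.F a) = ((4 : ℕ) : ℝ) ^ env4.s.D * psi4 a := by
    intro a ha
    show dz psv4 (bas true E4 (emb4 a)) = ((4 : ℕ) : ℝ) ^ 10 * psi4 a
    rw [F4_eq a ha, psi4, (cm4 a ha).1, (cm4 a ha).2.1, (cm4 a ha).2.2]
    simp [dz, dot, E4, mono, psv4]; ring
  have hA : ∀ a ∈ Sx 4, dz Av4 (env4.F a) = ((4 : ℕ) : ℝ) ^ env4.s.D * chi a := by
    intro a ha
    show dz Av4 (bas true E4 (emb4 a)) = ((4 : ℕ) : ℝ) ^ 10 * cm 2 a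
    rw [F4_eq a ha, (cm4 a ha).1]
    simp [dz, dot, E4, mono, Av4]; ring
  have hA2 : ∀ a ∈ Sx 4, dz A2v4 (env4.F a) = ((4 : ℕ) : ℝ) ^ env4.s.D * chi a ^ 2 := by
    intro a ha
    show dz A2v4 (bas true E4 (emb4 a)) = ((4 : ℕ) : ℝ) ^ 10 * cm 2 a ^ 2
    rw [F4_eq a ha, (cm4 a ha).1]
    simp [dz, dot, E4, mono, A2v4]; ring
  have hC : ∀ a ∈ Sx 4, 0 ≤ 84 * cm 2 a ^ 2 + 49 * cm 4 a - 90 * (cm 2 a * cm 3 a) := by
    intro a ha
    have h1 := env4.one C4_ok a ha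
    have h2 : dz chv4 (bas true E4 (emb4 a)) =
        4 ^ 10 * (84 * cm 2 a ^ 2 + 49 * cm 4 a - 90 * (cm 2 a * cm 3 a)) := by
      rw [F4_eq a ha, (cm4 a ha).1, (cm4 a ha).2.1, (cm4 a ha).2.2]
      simp [dz, dot, E4, mono, chv4]; ring
    exact nonneg_of_mul_nonneg_right (h2 ▸ h1) (by norm_num) 
  refine mkCert env4 (by norm_num) psi4 ?_ ?_ psv4 Av4 A2v4 hps hA hA2 cs4a mu4a Sp4a kk4a
    (by decide +kernel) (by decide +kernel)
    (env4.lower cs4a Sp4a cc4a (by decide +kernel) (Av4.map fun b => -1 * b) _ ?_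
      (H4a_eq ▸ H4a_ok)) (env4.two (G4a_eq ▸ G4a_ok)) (env4.one S4a_ok)
    cs4b mu4b Sp4b kk4b (by decide +kernel) (by decide +kernel)
    (env4.lower cs4b Sp4b cc4b (by decide +kernel) psv4 _ hps (H4b_eq ▸ H4b_ok))
    (env4.two (G4b_eq ▸ G4b_ok)) (env4.one S4b_ok) ?_ ?_ ?_
  · exact (((continuous_const.mul (cm_cont 3)).sub (continuous_const.mul ((cm_cont 2).pow 2))).sub
      (continuous_const.mul (cm_cont 4))).add (continuous_const.mul ((cm_cont 2).mul (cm_cont 3)))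
  · refine fun v => cont_dz E4 (fun a e => mono (gens true (emb4 a)) e) (fun e => ?_) v
    simp only [mono, gens, emb4, cond_true]; fun_prop
  · intro a ha
    rw [dz_map, hA a ha]; push_cast; ring
  · intro lam h0 h1 a ha
    simp only [psi4, cm_chan]
    have h4 : 0 ≤ cm 4 a := by unfold cm; positivity
    have h5 := hC a ha
    have h6 := sub_nonneg.2 h1
    have : 0 ≤ lam ^ 3 * (1 - lam) * ((1 - lam) * (84 * cm 2 a ^ 2 + 49 * cm 4 a) +
        (1 + lam) * (84 * cm 2 a ^ 2 + 49 * cm 4 a - 90 * (cm 2 a * cm 3 a))) := by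
      positivity
    nlinarith
  · intro j
    fin_cases j <;> simp [psi4, cm, Fin.sum_univ_four] <;> norm_num
  · simp [psi4, cm]

end Vale.Agent.P154
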