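import Vale.Agent.P154.Tree

namespace Vale.Agent.P154

open Filter Topology
open scoped ENNReal

namespace KS

structure Mom {O : Type} (w f : O → ℝ) (m s : ℝ) : Prop where
  nn : ∀ o, 0 ≤ w o
  h0 : HasSum w 1
  h1 : HasSum (fun o => w o * f o) m
  h2 : HasSum (fun o => w o * f o ^ 2) s

theorem hs_mul {O O' : Type} {a : O → ℝ} {b : O' → ℝ} {x y : ℝ} (ha : HasSum a x) (hb : HasSum b y) :
    HasSum (fun p : O × O' => a p.1 * b p.2) (x * y) :=
  ha.mul hb (summable_mul_of_summable_norm ha.summable.norm hb.summable.norm)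

theorem hs_congr {O : Type} {f g : O → ℝ} {a b : ℝ} (h : HasSum f a) (hf : ∀ x, g x = f x)
    (ha : b = a) : HasSum g b := by
  rw [ha, funext hf]; exact h

theorem Mom.prod {O O' : Type} {w f : O → ℝ} {w' f' : O' → ℝ} {m s m' s' : ℝ} (h : Mom w f m s)
    (h' : Mom w' f' m' s') : Mom (fun p : O × O' => w p.1 * w' p.2) (fun p => f p.1 + f' p.2)
      (m + m') (s + s' + 2 * (m * m')) where
  nn p := mul_nonneg (h.nn _) (h'.nn _)
  h0 := by simpa using hs_mul h.h0 h'.h0
  h1 := by
    have := (hs_mul h.h1 h'.h0).add (hs_mul h.h0 h'.h1)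
    simp only [mul_one, one_mul] at this
    convert this using 2; ring
  h2 := by
    have := ((hs_mul h.h2 h'.h0).add (hs_mul h.h0 h'.h2)).add ((hs_mul h.h1 h'.h1).mul_left 2)
    simp only [mul_one, one_mul] at this
    convert this using 2; ring

theorem Mom.comp {O O' : Type} {w f : O → ℝ} {m s : ℝ} (h : Mom w f m s) (e : O' ≃ O) :
    Mom (fun o => w (e o)) (fun o => f (e o)) m s :=
  ⟨fun _ => h.nn _, e.hasSum_iff.2 h.h0, e.hasSum_iff.2 h.h1, e.hasSum_iff.2 h.h2⟩

theorem Mom.pow {O : Type} {w f : O → ℝ} {m s : ℝ} (h : Mom w f m s) : ∀ k : ℕ,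
    Mom (fun o : Fin k → O => ∏ c, w (o c)) (fun o => ∑ c, f (o c)) (k * m)
      (k * s + k * (k - 1) * m ^ 2)
  | 0 => ⟨fun _ => by simp, by simp, by simp, by simp⟩
  | k + 1 => by
    have := (h.prod (h.pow k)).comp (Fin.consEquiv fun _ : Fin (k + 1) => O).symm
    convert this using 1
    · funext o; simp [Fin.prod_univ_succ, Fin.consEquiv, Fin.tail]
    · funext o; simp [Fin.sum_univ_succ, Fin.consEquiv, Fin.tail]
    · push_cast; ring
    · push_cast; ring

theorem hs_sigma {β : ℕ → Type} {g : (Σ k, β k) → ℝ} {u : ℕ → ℝ} {x : ℝ} (h0 : ∀ o, 0 ≤ g o)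
    (hk : ∀ k, HasSum (fun o => g ⟨k, o⟩) (u k)) (hu : HasSum u x) : HasSum g x := by
  have hs : Summable g := by
    refine (summable_sigma_of_nonneg h0).2 ⟨fun k => (hk k).summable, ?_⟩
    rw [show (fun k => ∑' o, g ⟨k, o⟩) = u from funext fun k => (hk k).tsum_eq]
    exact hu.summable
  exact ((hs.hasSum.sigma hk).unique hu) ▸ hs.hasSum

theorem Mom.mix {O : Type} {w f : O → ℝ} {m s : ℝ} (h : Mom w f m s) {off : ℕ → ℝ} {d K : ℝ}
    (o0 : ∀ k, 0 ≤ off k) (o1 : HasSum off 1) (od : HasSum (fun k : ℕ => (k : ℝ) * off k) d)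
    (oK : HasSum (fun k : ℕ => (k : ℝ) * (k - 1) * off k) K) :
    Mom (fun o : Σ k : ℕ, Fin k → O => off o.1 * ∏ c, w (o.2 c)) (fun o => ∑ c, f (o.2 c))
      (d * m) (d * s + K * m ^ 2) := by
  have nn : ∀ o : Σ k : ℕ, Fin k → O, 0 ≤ off o.1 * ∏ c, w (o.2 c) :=
    fun o => mul_nonneg (o0 _) ((h.pow o.1).nn o.2)
  have a0 : HasSum (fun o : Σ k : ℕ, Fin k → O => off o.1 * ∏ c, w (o.2 c)) 1 :=
    hs_sigma nn (fun k => by simpa using (h.pow k).h0.mul_left (off k)) o1
  have a2 : HasSum (fun o : Σ k : ℕ, Fin k → O => (off o.1 * ∏ c, w (o.2 c)) *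
      (∑ c, f (o.2 c)) ^ 2) (d * s + K * m ^ 2) := by
    refine hs_sigma (fun o => mul_nonneg (nn o) (sq_nonneg _))
      (fun k => by simpa only [mul_assoc] using (h.pow k).h2.mul_left (off k)) ?_
    exact hs_congr ((od.mul_right s).add (oK.mul_right (m ^ 2))) (fun k => by ring) rfl
  refine ⟨nn, a0, ?_, a2⟩
  have hs : Summable fun o : Σ k : ℕ, Fin k → O => (off o.1 * ∏ c, w (o.2 c)) * ∑ c, f (o.2 c) := by
    refine Summable.of_norm_bounded (a0.summable.add a2.summable) fun o => ?_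
    rw [Real.norm_eq_abs, abs_mul, abs_of_nonneg (nn o)]
    have : |∑ c, f (o.2 c)| ≤ 1 + (∑ c, f (o.2 c)) ^ 2 := by
      rw [← sq_abs]; nlinarith [sq_nonneg (|∑ c, f (o.2 c)| - 1)]
    nlinarith [mul_le_mul_of_nonneg_left this (nn o)]
  have hk : ∀ k : ℕ, HasSum (fun o : Fin k → O => (off k * ∏ c, w (o c)) * ∑ c, f (o c))
      (k * off k * m) := fun k =>
    hs_congr ((h.pow k).h1.mul_left (off k)) (fun o => by ring) (by ring)
  exact ((hs.hasSum.sigma hk).unique (od.mul_right m)) ▸ hs.hasSum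

theorem Mom.avg {O : Type} {q : ℕ} {w : Fin q → O → ℝ} {f : O → ℝ} {m s : Fin q → ℝ}
    (h : ∀ j, Mom (w j) f (m j) (s j)) (p : Fin q → ℝ) (p0 : ∀ j, 0 ≤ p j) (p1 : ∑ j, p j = 1) :
    Mom (fun o => ∑ j, p j * w j o) f (∑ j, p j * m j) (∑ j, p j * s j) where
  nn o := Finset.sum_nonneg fun j _ => mul_nonneg (p0 j) ((h j).nn o)
  h0 := by
    have := hasSum_sum (s := Finset.univ) fun j _ => (h j).h0.mul_left (p j)
    simpa [p1] using this
  h1 := by
    have := hasSum_sum (s := Finset.univ) fun j _ => (h j).h1.mul_left (p j)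
    simpa only [Finset.sum_mul, mul_assoc] using this
  h2 := by
    have := hasSum_sum (s := Finset.univ) fun j _ => (h j).h2.mul_left (p j)
    simpa only [Finset.sum_mul, mul_assoc] using this

/-- centred number of depth `n` vertices with spin `z` -/
noncomputable def cen (q : ℕ) (z : Fin q) : (n : ℕ) → Obs q n → ℝ
  | 0, o => (if z = (show Fin q from o) then 1 else 0) - 1 / q
  | n + 1, o => ∑ c : Fin o.1, cen q z n (o.2 c)

variable {q : ℕ} {lam : ℝ} {off : ℕ → ℝ} {d K : ℝ}

theorem chan_sum (hq : 2 ≤ q) (i : Fin q) : ∑ j, chan q lam i j = 1 := by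
  have : (q : ℝ) ≠ 0 := by positivity
  simp [chan, Finset.sum_add_distrib]; field_simp; ring

theorem chan_e (hq : 2 ≤ q) (z i : Fin q) :
    ∑ j, chan q lam i j * ((if z = j then 1 else 0) - 1 / q) =
      lam * ((if z = i then 1 else 0) - 1 / q) := by
  have : (q : ℝ) ≠ 0 := by positivity
  simp only [mul_sub, Finset.sum_sub_distrib, ← Finset.sum_mul, chan_sum hq]
  simp only [mul_ite, mul_one, mul_zero, Finset.sum_ite_eq, Finset.mem_univ, if_true, chan, eq_comm]
  ring

theorem mom (hq : 2 ≤ q) (z : Fin q) (hP : ∀ i j, 0 ≤ chan q lam i j) (o0 : ∀ k, 0 ≤ off k)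
    (o1 : HasSum off 1) (od : HasSum (fun k : ℕ => (k : ℝ) * off k) d)
    (oK : HasSum (fun k : ℕ => (k : ℝ) * (k - 1) * off k) K) {C : ℝ} (hC : 1 ≤ C)
    (hd : 0 ≤ d) (hK : 0 ≤ K) (hC' : d * C + K * lam ^ 2 ≤ C * (d * lam) ^ 2) : ∀ n, ∃ s : Fin q → ℝ,
      (∀ i, s i ≤ C * ((d * lam) ^ n) ^ 2) ∧ ∀ i, Mom (like q lam off n i) (cen q z n)
        ((d * lam) ^ n * ((if z = i then 1 else 0) - 1 / q)) (s i) := by
  have hq1 : (1 : ℝ) / q ≤ 1 := by
    rw [div_le_one (by positivity)]; exact_mod_cast (by omega : 1 ≤ q)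
  have hq0 : (0 : ℝ) ≤ 1 / q := by positivity
  have he : ∀ i : Fin q, ((if z = i then 1 else 0) - 1 / (q : ℝ)) ^ 2 ≤ 1 := by
    intro i; split_ifs <;> nlinarith
  intro n
  induction n with
  | zero =>
    refine ⟨fun i => ((if z = i then 1 else 0) - 1 / q) ^ 2, fun i => by
      simpa using (he i).trans hC, fun i => ?_⟩
    have key : ∀ g : Obs q 0 → ℝ, HasSum (fun o => like q lam off 0 i o * g o) (g i) := fun g => by
      have := hasSum_single (f := fun o : Obs q 0 => like q lam off 0 i o * g o) (i : Obs q 0)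
        (fun o ho => mul_eq_zero_of_left (by simp only [like]; exact if_neg (Ne.symm ho)) _)
      simpa [like] using this
    refine ⟨fun o => by simp only [like]; split_ifs <;> simp, by simpa using key fun _ => 1, ?_, ?_⟩
    · simpa [cen] using key (cen q z 0)
    · simpa [cen] using key fun o => cen q z 0 o ^ 2
  | succ n ih =>
    obtain ⟨s, hs, hm⟩ := ih
    refine ⟨fun i => d * (∑ j, chan q lam i j * s j) + K * (∑ j, chan q lam i j *
      ((d * lam) ^ n * ((if z = j then 1 else 0) - 1 / q))) ^ 2, fun i => ?_, fun i => ?_⟩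
    · have e1 : ∑ j, chan q lam i j * ((d * lam) ^ n * ((if z = j then 1 else 0) - 1 / q)) =
          (d * lam) ^ n * (lam * ((if z = i then 1 else 0) - 1 / q)) := by
        rw [← chan_e hq, Finset.mul_sum]
        exact Finset.sum_congr rfl fun j _ => by ring
      have e2 : ∑ j, chan q lam i j * s j ≤ C * ((d * lam) ^ n) ^ 2 := by
        calc _ ≤ ∑ j, chan q lam i j * (C * ((d * lam) ^ n) ^ 2) :=
              Finset.sum_le_sum fun j _ => mul_le_mul_of_nonneg_left (hs j) (hP i j)
          _ = _ := by rw [← Finset.sum_mul, chan_sum hq, one_mul]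
      beta_reduce
      rw [e1, pow_succ (d * lam) n]
      set t := (d * lam) ^ n
      have a1 := mul_le_mul_of_nonneg_left e2 hd
      have a2 := mul_le_mul_of_nonneg_left (he i) (show 0 ≤ K * (t ^ 2 * lam ^ 2) by positivity)
      have a3 := mul_le_mul_of_nonneg_left hC' (sq_nonneg t)
      nlinarith
    · have := ((Mom.avg hm (chan q lam i) (hP i) (chan_sum hq i)).mix o0 o1 od oK)
      have e : (d * lam) ^ (n + 1) * ((if z = i then 1 else 0) - 1 / q) = d * ∑ j, chan q lam i j *
          ((d * lam) ^ n * ((if z = j then 1 else 0) - 1 / q)) := by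
        rw [pow_succ, mul_assoc, mul_assoc, ← chan_e hq, Finset.mul_sum, Finset.mul_sum,
          Finset.mul_sum]
        exact Finset.sum_congr rfl fun j _ => by ring
      rw [e]
      exact this

theorem ks (hq : 2 ≤ q) (hP : ∀ i j, 0 ≤ chan q lam i j) (o0 : ∀ k, 0 ≤ off k)
    (o1 : HasSum off 1) (od : HasSum (fun k : ℕ => (k : ℝ) * off k) d)
    (oK : HasSum (fun k : ℕ => (k : ℝ) * (k - 1) * off k) K) (h : 1 < d * lam ^ 2) :
    ∃ c : ℝ≥0∞, 0 < c ∧ ∀ n, c ≤ adv q lam off n := by
  have hq' : (2 : ℝ) ≤ q := by exact_mod_cast hq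
  have hd : 0 < d := by
    by_contra hd
    nlinarith [mul_nonneg (neg_nonneg.2 (not_lt.1 hd)) (sq_nonneg lam)]
  have hK : 0 ≤ K := oK.nonneg fun k => mul_nonneg (by
    rcases k with _ | k
    · simp
    · push_cast; have : (0 : ℝ) ≤ k := Nat.cast_nonneg k
      nlinarith) (o0 k)
  have hg : 0 < d * (d * lam ^ 2 - 1) := mul_pos hd (by linarith)
  set C := 1 + K * lam ^ 2 / (d * (d * lam ^ 2 - 1)) with hCd
  have hC : 1 ≤ C := le_add_of_nonneg_right (by positivity)
  have hC' : d * C + K * lam ^ 2 ≤ C * (d * lam) ^ 2 := by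
    have : C * (d * (d * lam ^ 2 - 1)) = d * (d * lam ^ 2 - 1) + K * lam ^ 2 := by
      rw [hCd, add_mul, one_mul, div_mul_cancel₀ _ hg.ne']
    nlinarith
  have hl : d * lam ≠ 0 := by
    intro h0
    have : d * lam ^ 2 = 0 := by rw [sq, ← mul_assoc, h0, zero_mul]
    linarith
  refine ⟨ENNReal.ofReal (1 / (32 * (q : ℝ) ^ 2 * C)), ENNReal.ofReal_pos.2 (by positivity),
    fun n => ?_⟩
  let z : Fin q := ⟨0, by omega⟩
  obtain ⟨s, hs, hm⟩ := mom hq z hP o0 o1 od oK hC hd.le hK hC' n
  set t := (d * lam) ^ n with ht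
  have ht0 : 0 < |t| := abs_pos.2 (pow_ne_zero n hl)
  have hb := Mom.avg hm (fun _ => 1 / (q : ℝ)) (fun _ => by positivity) (by simp; field_simp)
  have e0 : ∑ j : Fin q, 1 / (q : ℝ) * (t * ((if z = j then 1 else 0) - 1 / q)) = 0 := by
    rw [← Finset.mul_sum, ← Finset.mul_sum, Finset.sum_sub_distrib]
    simp; right; right; field_simp; ring
  rw [e0] at hb
  have hz := hm z
  rw [if_pos rfl] at hz
  set w := like q lam off n z
  set wb := fun o => ∑ j : Fin q, 1 / (q : ℝ) * like q lam off n j o with hwb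
  have hle : ∀ o, |w o - wb o| ≤ q * wb o := by
    intro o
    have h1 : q * wb o = ∑ j, like q lam off n j o := by
      simp only [hwb]; rw [← Finset.mul_sum]; field_simp
    have h2 : w o ≤ ∑ j, like q lam off n j o :=
      Finset.single_le_sum (f := fun j => like q lam off n j o) (fun j _ => (hm j).nn o)
        (Finset.mem_univ z)
    have h3 := hb.nn o
    have h4 := hz.nn o
    rw [abs_le]; constructor <;> nlinarith
  have hT : Summable fun o => |w o - wb o| := (hz.h0.summable.sub hb.h0.summable).abs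
  set T := ∑' o, |w o - wb o| with hTd
  have hsb : ∑ j : Fin q, 1 / (q : ℝ) * s j ≤ C * t ^ 2 := by
    calc _ ≤ ∑ _j : Fin q, 1 / (q : ℝ) * (C * t ^ 2) :=
          Finset.sum_le_sum fun j _ => mul_le_mul_of_nonneg_left (hs j) (by positivity)
      _ = _ := by simp; field_simp
  set M := 4 * q * C * |t| with hM
  have hM0 : 0 < M := by positivity
  have main : |t * (1 - 1 / q)| ≤ M * T + q / M * ∑ j : Fin q, 1 / (q : ℝ) * s j := by
    have h1 := (hz.h1.sub hb.h1)
    rw [sub_zero] at h1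
    rw [← Real.norm_eq_abs]
    refine HasSum.norm_le_of_bounded h1 ((hT.hasSum.mul_left M).add (hb.h2.mul_left (q / M)))
      fun o => ?_
    rw [Real.norm_eq_abs, ← sub_mul, abs_mul]
    have a1 : |cen q z n o| ≤ M + cen q z n o ^ 2 / M := by
      rw [← sq_abs, ← sub_le_iff_le_add', le_div_iff₀ hM0]
      nlinarith [sq_nonneg (|cen q z n o| - M), abs_nonneg (cen q z n o)]
    have a2 := mul_le_mul_of_nonneg_left a1 (abs_nonneg (w o - wb o))
    have a3 := mul_le_mul_of_nonneg_right (hle o) (show 0 ≤ cen q z n o ^ 2 / M by positivity)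
    have a4 : q * wb o * (cen q z n o ^ 2 / M) = q / M * (wb o * cen q z n o ^ 2) := by ring
    nlinarith
  have hTlow : 1 / (16 * q * C) ≤ T := by
    have b1 : 1 / (q : ℝ) ≤ 1 / 2 := one_div_le_one_div_of_le (by norm_num) hq'
    have b2 : |t| / 2 ≤ |t * (1 - 1 / q)| := by
      rw [abs_mul, abs_of_nonneg (show 0 ≤ 1 - 1 / (q : ℝ) by linarith)]; nlinarith
    have b3 : q / M * ∑ j : Fin q, 1 / (q : ℝ) * s j ≤ |t| / 4 := by
      refine (mul_le_mul_of_nonneg_left hsb (by positivity)).trans (le_of_eq ?_)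
      rw [hM, ← sq_abs t]; field_simp
    rw [div_le_iff₀ (by positivity)]
    have b4 : |t| / 4 ≤ 4 * q * C * |t| * T := by linarith
    nlinarith
  calc ENNReal.ofReal (1 / (32 * (q : ℝ) ^ 2 * C)) ≤ ENNReal.ofReal (∑' o, 1 / (2 * q) * |w o - wb o|) := by
        refine ENNReal.ofReal_le_ofReal ?_
        rw [tsum_mul_left]
        refine le_trans (le_of_eq ?_) (mul_le_mul_of_nonneg_left hTlow (by positivity))
        field_simp; ring
    _ = ∑' o, ENNReal.ofReal (1 / (2 * q) * |w o - wb o|) :=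
        ENNReal.ofReal_tsum_of_nonneg (fun o => by positivity) (hT.mul_left _)
    _ ≤ adv q lam off n := by
        refine ENNReal.tsum_le_tsum fun o => ENNReal.ofReal_le_ofReal ?_
        have h1 : q * wb o = ∑ j, like q lam off n j o := by
          simp only [hwb]; rw [← Finset.mul_sum]; field_simp
        rw [← h1]
        rcases (hb.nn o).eq_or_lt with h0 | h0
        · have h0' : wb o = 0 := h0.symm
          have := hle o
          rw [h0'] at this ⊢
          have h3 : |w o - 0| = 0 := le_antisymm (by simpa using this) (abs_nonneg _)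
          rw [h3]; simp
        · have h0' : 0 < wb o := h0
          have h2 := Finset.single_le_sum (f := fun i : Fin q =>
            |like q lam off n i o / (q * wb o) - 1 / q|) (fun j _ => abs_nonneg _) (Finset.mem_univ z)
          have h3 : |w o / (q * wb o) - 1 / q| = |w o - wb o| / (q * wb o) := by
            rw [← abs_of_pos (show 0 < q * wb o by positivity), ← abs_div,
              abs_of_pos (show 0 < q * wb o by positivity)]
            congr 1; field_simp
          refine le_trans (le_of_eq ?_) (mul_le_mul_of_nonneg_left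
            (mul_le_mul_of_nonneg_left (h3 ▸ h2) (by norm_num)) (by positivity))
          field_simp

theorem reg2 (d : ℕ) : HasSum (fun k : ℕ => (k : ℝ) * (k - 1) * offReg d k) (d * (d - 1)) := by
  simpa [offReg] using hasSum_single (f := fun k : ℕ => (k : ℝ) * (k - 1) * offReg d k) d
    (fun k hk => by simp [offReg, hk])

theorem poi2 (d : ℝ) : HasSum (fun k : ℕ => (k : ℝ) * (k - 1) * offPoi d k) (d ^ 2) := by
  have h := (NormedSpace.expSeries_div_hasSum_exp d).mul_left (Real.exp (-d) * d ^ 2)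
  rw [← Real.exp_eq_exp_ℝ, mul_right_comm, ← Real.exp_add, neg_add_cancel, Real.exp_zero,
    one_mul] at h
  rw [← hasSum_nat_add_iff' 2]
  simp only [Finset.sum_range_succ, Finset.range_zero, Finset.sum_empty, Nat.cast_zero, zero_mul,
    Nat.cast_one, sub_self, mul_zero, add_zero, sub_zero]
  refine hs_congr h (fun k => ?_) rfl
  unfold offPoi
  rw [Nat.factorial_succ, Nat.factorial_succ]
  push_cast
  field_simp
  ring

end KS

end Vale.Agent.P154
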