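import Vale.Agent.P154.Chk

namespace Vale.Agent.P154

/-! packed digits -/

def Pk (Y : ℕ) : List ℝ → ℕ → ℝ → ℕ → Prop
  | [], N, x, _ => N = 0 ∧ x = 0
  | m :: ms, N, x, bd => ∃ (d N' : ℕ) (x' : ℝ), d ≤ bd ∧ N = d + N' * Y ∧ x = d * m + x' ∧
      Pk Y ms N' x' bd

namespace Pk
variable {Y : ℕ}

theorem zero (ms : List ℝ) (bd : ℕ) : Pk Y ms 0 0 bd := by
  induction ms with
  | nil => exact ⟨rfl, rfl⟩
  | cons m ms ih => exact ⟨0, 0, 0, Nat.zero_le _, by simp, by simp, ih⟩

theorem mono' {ms : List ℝ} {N x b b'} (h : Pk Y ms N x b) (hb : b ≤ b') : Pk Y ms N x b' := by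
  induction ms generalizing N x with
  | nil => exact h
  | cons m ms ih =>
    obtain ⟨d, N', x', h1, h2, h3, h4⟩ := h
    exact ⟨d, N', x', h1.trans hb, h2, h3, ih h4⟩

theorem madd {ms : List ℝ} {N x b N2 x2 b2} (c : ℕ) (h : Pk Y ms N x b) (h2 : Pk Y ms N2 x2 b2) :
    Pk Y ms (c * N + N2) (c * x + x2) (c * b + b2) := by
  induction ms generalizing N x N2 x2 with
  | nil =>
    obtain ⟨rfl, rfl⟩ := h
    obtain ⟨rfl, rfl⟩ := h2
    exact ⟨by simp, by simp⟩
  | cons m ms ih =>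
    obtain ⟨d, N', x', h1, rfl, rfl, h4⟩ := h
    obtain ⟨d2, N2', x2', k1, rfl, rfl, k4⟩ := h2
    exact ⟨c * d + d2, _, _, Nat.add_le_add (Nat.mul_le_mul_left c h1) k1, by ring,
      by push_cast; ring, ih h4 k4⟩

theorem dot' {α : Type} {ms : List ℝ} (l : List α) (f : α → ℕ) (g : α → ℝ) (bd : ℕ)
    (h : ∀ a ∈ l, Pk Y ms (f a) (g a) bd) (c : List ℕ) :
    Pk Y ms (dot c (l.map f)) (dot (c.map ((↑) : ℕ → ℝ)) (l.map g)) (c.sum * bd) := by
  induction c generalizing l with
  | nil => simpa [dot] using zero ms 0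
  | cons a c ih =>
    cases l with
    | nil => simpa [dot] using zero ms _
    | cons b l =>
      have := madd a (h b (by simp)) (ih l fun x hx => h x (by simp [hx]))
      simpa [dot, add_mul] using this
end Pk

noncomputable def ones (Y n : ℕ) : ℕ :=
  Nat.rec (motive := fun _ => ℕ) 0 (fun _ ih => Nat.add 1 (Nat.mul ih Y)) n

theorem ones_succ (Y n : ℕ) : ones Y (n + 1) = 1 + ones Y n * Y := rfl

theorem Pk.le_top {Y : ℕ} {ms : List ℝ} {N x bd} (H : Pk Y ms N x bd) :
    N ≤ bd * ones Y ms.length := by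
  induction ms generalizing N x with
  | nil => simp [H.1]
  | cons a I ih =>
    obtain ⟨d, N', x', h1, rfl, -, h4⟩ := H
    have := Nat.mul_le_mul_right Y (ih h4)
    rw [List.length_cons, ones_succ]
    nlinarith

theorem Pk.ones' {Y : ℕ} (ms : List ℝ) (c : ℕ) : Pk Y ms (c * ones Y ms.length) (c * ms.sum) c := by
  induction ms with
  | nil => exact ⟨rfl, by simp⟩
  | cons a I ih =>
    exact ⟨c, _, _, le_rfl, by rw [List.length_cons, ones_succ]; ring, by simp [mul_add], ih⟩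

theorem sub_split {Y d e c P N T : ℕ} (h5 : e ≤ d + c) (h6 : N ≤ P + T) :
    d + P * Y + (c + T * Y) - (e + N * Y) = (d + c - e) + (P + T - N) * Y := by
  zify [h5, h6, show e + N * Y ≤ d + P * Y + (c + T * Y) by
    nlinarith [Nat.mul_le_mul_right Y h6]]
  ring

theorem Pk.off {Y : ℕ} {ms : List ℝ} {P x N y bd} (H : Pk Y ms P x bd) (H' : Pk Y ms N y bd) :
    Pk Y ms (P + bd * ones Y ms.length - N) (x - y + bd * ms.sum) (2 * bd) := by
  induction ms generalizing P x N y with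
  | nil => exact ⟨by simp [H.1, ones], by simp [H.2, H'.2]⟩
  | cons a I ih =>
    obtain ⟨d, P', x', h1, rfl, rfl, h4⟩ := H
    obtain ⟨e, N', y', k1, rfl, rfl, k4⟩ := H'
    have hle := k4.le_top
    refine ⟨d + bd - e, _, _, by omega, ?_, ?_, ih h4 k4⟩
    · rw [List.length_cons, ones_succ, mul_add, mul_one, ← mul_assoc,
        sub_split (by omega) (by omega)]
    · rw [Nat.cast_sub (by omega)]; push_cast; simp only [List.sum_cons]; ring

theorem Pk.cmp {k : ℕ} {ms : List ℝ} (hm : ∀ a ∈ ms, 0 ≤ a)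
    {P x N y bd} (H : Pk (2 ^ (k + 1)) ms P x bd) (H' : Pk (2 ^ (k + 1)) ms N y bd)
    (hb : bd < 2 ^ k)
    (hc : (P + 2 ^ k * ones (2 ^ (k + 1)) ms.length - N) &&& (2 ^ k * ones (2 ^ (k + 1)) ms.length) =
      2 ^ k * ones (2 ^ (k + 1)) ms.length) : y ≤ x := by
  induction ms generalizing P x N y with
  | nil => simp [H.2, H'.2]
  | cons a I ih =>
    obtain ⟨d, P', x', h1, rfl, rfl, h4⟩ := H
    obtain ⟨e, N', y', k1, rfl, rfl, k4⟩ := H'
    have hle := k4.le_top.trans (Nat.mul_le_mul_right _ hb.le)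
    rw [List.length_cons, ones_succ, mul_add, mul_one, ← mul_assoc,
      sub_split (by omega) (by omega)] at hc
    set T := 2 ^ k * ones (2 ^ (k + 1)) I.length
    have hpos : 0 < 2 ^ (k + 1) := by positivity
    have hd : d + 2 ^ k - e < 2 ^ (k + 1) := by omega
    have hh : 2 ^ k < 2 ^ (k + 1) := by omega
    have c1 := congrArg (· % 2 ^ (k + 1)) hc
    have c2 := congrArg (· / 2 ^ (k + 1)) hc
    simp only [Nat.and_mod_two_pow, Nat.add_mul_mod_self_right, Nat.mod_eq_of_lt hd,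
      Nat.mod_eq_of_lt hh] at c1
    simp only [Nat.and_div_two_pow, Nat.add_mul_div_right _ _ hpos, Nat.div_eq_of_lt hd,
      Nat.div_eq_of_lt hh, zero_add] at c2
    have c3 : 2 ^ k ≤ d + 2 ^ k - e := by
      have := @Nat.and_le_left (d + 2 ^ k - e) (2 ^ k)
      omega
    have c4 : (e : ℝ) ≤ d := by exact_mod_cast (by omega : e ≤ d)
    have := ih (fun a ha => hm a (by simp [ha])) h4 k4 c2
    nlinarith [hm a (by simp)]

theorem Pk.app {Y : ℕ} {m1 m2 : List ℝ} {N1 x1 N2 x2 bd} (H : Pk Y m1 N1 x1 bd)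
    (H' : Pk Y m2 N2 x2 bd) : Pk Y (m1 ++ m2) (N1 + N2 * Y ^ m1.length) (x1 + x2) bd := by
  induction m1 generalizing N1 x1 with
  | nil => simpa [H.1, H.2] using H'
  | cons a I ih =>
    obtain ⟨d, P', x', h1, rfl, rfl, h4⟩ := H
    exact ⟨d, _, _, h1, by rw [List.length_cons]; ring, by ring, ih h4⟩

theorem Pk.sl {Y M bd : ℕ} (m : ℕ → ℝ) (n : ℕ) (h : ∀ i < n, M / Y ^ i % Y ≤ bd) :
    Pk Y ((List.range n).map m) (M % Y ^ n)
      (∑ i ∈ Finset.range n, ((M / Y ^ i % Y : ℕ) : ℝ) * m i) bd := by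
  induction n with
  | zero => exact ⟨by simp [Nat.mod_one], by simp⟩
  | succ n ih =>
    have h1 : Pk Y [m n] (M / Y ^ n % Y) (((M / Y ^ n % Y : ℕ) : ℝ) * m n) bd :=
      ⟨_, 0, 0, h n (by omega), by simp, by simp, rfl, rfl⟩
    have := (ih fun i hi => h i (by omega)).app h1
    rw [List.range_succ, List.map_append, Finset.sum_range_succ, Nat.mod_pow_succ]
    simpa [mul_comm] using this

noncomputable def repack (D b N : ℕ) : ℕ :=
  Nat.rec (motive := fun _ => ℕ) 0 (fun e3 ih =>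
    (fun N3 : ℕ => Nat.rec (motive := fun _ => ℕ) ih (fun e2 ih2 =>
      (fun l : ℕ => Nat.add (Nat.land (Nat.shiftRight N3 (b * (D + 1) * e2)) (2 ^ l - 1))
        (Nat.shiftLeft ih2 l)) (b * (D + 1 - e3 - e2))) (D + 1 - e3))
    (slice (b * (D + 1) * (D + 1)) e3 N)) (D + 1)

noncomputable def cnt (D : ℕ) : ℕ :=
  Nat.rec (motive := fun _ => ℕ) 0 (fun e3 ih => Nat.rec (motive := fun _ => ℕ) ih
    (fun e2 ih2 => (D + 1 - e3 - e2) + ih2) (D + 1 - e3)) (D + 1)

noncomputable def msl (D : ℕ) (m : ℕ × ℕ × ℕ → ℝ) : List ℝ :=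
  Nat.rec (motive := fun _ => List ℝ) [] (fun e3 ih => Nat.rec (motive := fun _ => List ℝ) ih
    (fun e2 ih2 => (List.range (D + 1 - e3 - e2)).map (fun e1 => m (e1, e2, e3)) ++ ih2)
    (D + 1 - e3)) (D + 1)

theorem msl_length (D m) : (msl D m).length = cnt D := by
  unfold msl cnt
  generalize D + 1 = W
  suffices ∀ n : ℕ, (Nat.rec (motive := fun _ => List ℝ) [] (fun e3 ih =>
      Nat.rec (motive := fun _ => List ℝ) ih
      (fun e2 ih2 => (List.range (W - e3 - e2)).map (fun e1 => m (e1, e2, e3)) ++ ih2)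
      (W - e3)) n).length = Nat.rec (motive := fun _ => ℕ) 0 (fun e3 ih =>
      Nat.rec (motive := fun _ => ℕ) ih (fun e2 ih2 => (W - e3 - e2) + ih2) (W - e3)) n from this W
  intro n
  induction n with
  | zero => rfl
  | succ n ih =>
    simp only
    generalize W - n = r
    suffices ∀ t : ℕ, (Nat.rec (motive := fun _ => List ℝ) _
      (fun e2 ih2 => (List.range (r - e2)).map (fun e1 => m (e1, e2, n)) ++ ih2) t).length =
      Nat.rec (motive := fun _ => ℕ) _ (fun e2 ih2 => (r - e2) + ih2) t from this r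
    intro t
    induction t with
    | zero => exact ih
    | succ t iht => simp [iht]

theorem msl_nonneg (D m) (hm : ∀ e, 0 ≤ m e) : ∀ a ∈ msl D m, 0 ≤ a := by
  unfold msl
  generalize D + 1 = W
  suffices ∀ n : ℕ, ∀ a ∈ (Nat.rec (motive := fun _ => List ℝ) [] (fun e3 ih =>
      Nat.rec (motive := fun _ => List ℝ) ih
      (fun e2 ih2 => (List.range (W - e3 - e2)).map (fun e1 => m (e1, e2, e3)) ++ ih2)
      (W - e3)) n), 0 ≤ a from this W
  intro n
  induction n with
  | zero => simp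
  | succ n ih =>
    simp only
    generalize W - n = r
    suffices ∀ t : ℕ, ∀ a ∈ (Nat.rec (motive := fun _ => List ℝ) _
      (fun e2 ih2 => (List.range (r - e2)).map (fun e1 => m (e1, e2, n)) ++ ih2) t), 0 ≤ a
      from this r
    intro t
    induction t with
    | zero => exact ih
    | succ t iht =>
      intro a ha
      simp only [List.mem_append, List.mem_map] at ha
      rcases ha with ⟨e, -, rfl⟩ | ha
      · exact hm _
      · exact iht a ha

theorem pk_repack (D b N bd : ℕ) (w : W4 ℝ) (h : ∀ p, N / (2 ^ b) ^ p % 2 ^ b ≤ bd) :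
    Pk (2 ^ b) (msl D (mon D w)) (repack D b N) (dec D b w N) bd := by
  rw [dec, sum_idx]
  unfold msl repack
  suffices ∀ n ≤ D + 1, Pk (2 ^ b) (Nat.rec (motive := fun _ => List ℝ) [] (fun e3 ih =>
      Nat.rec (motive := fun _ => List ℝ) ih
      (fun e2 ih2 => (List.range (D + 1 - e3 - e2)).map (fun e1 => mon D w (e1, e2, e3)) ++ ih2)
      (D + 1 - e3)) n) (Nat.rec (motive := fun _ => ℕ) 0 (fun e3 ih =>
    (fun N3 : ℕ => Nat.rec (motive := fun _ => ℕ) ih (fun e2 ih2 =>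
      (fun l : ℕ => Nat.add (Nat.land (Nat.shiftRight N3 (b * (D + 1) * e2)) (2 ^ l - 1))
        (Nat.shiftLeft ih2 l)) (b * (D + 1 - e3 - e2))) (D + 1 - e3))
    (slice (b * (D + 1) * (D + 1)) e3 N)) n)
      (∑ e3 ∈ Finset.range n, ∑ e2 ∈ Finset.range (D + 1 - e3),
        ∑ e1 ∈ Finset.range (D + 1 - e3 - e2), (dig D b (e1, e2, e3) N : ℝ) * mon D w (e1, e2, e3))
      bd from this _ le_rfl
  intro n hn
  induction n with
  | zero => exact ⟨rfl, by simp⟩
  | succ n ih =>
    rw [Finset.sum_range_succ]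
    simp only
    suffices ∀ t ≤ D + 1 - n, Pk (2 ^ b) (Nat.rec (motive := fun _ => List ℝ) _
      (fun e2 ih2 => (List.range (D + 1 - n - e2)).map (fun e1 => mon D w (e1, e2, n)) ++ ih2) t)
      (Nat.rec (motive := fun _ => ℕ) _ (fun e2 ih2 => Nat.add (Nat.land (Nat.shiftRight
        (slice (b * (D + 1) * (D + 1)) n N) (b * (D + 1) * e2)) (2 ^ (b * (D + 1 - n - e2)) - 1))
        (Nat.shiftLeft ih2 (b * (D + 1 - n - e2)))) t)
      (_ + ∑ e2 ∈ Finset.range t, ∑ e1 ∈ Finset.range (D + 1 - n - e2),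
        (dig D b (e1, e2, n) N : ℝ) * mon D w (e1, e2, n)) bd from this _ le_rfl
    intro t ht
    induction t with
    | zero => simpa using ih (by omega)
    | succ t iht =>
      set M := slice (b * (D + 1) * (D + 1)) n N / 2 ^ (b * (D + 1) * t) with hM
      have hdig : ∀ i < D + 1 - n - t, M / (2 ^ b) ^ i % 2 ^ b = dig D b (i, t, n) N := by
        intro i hi
        have k2 := Nat.mul_le_mul_left b (show i ≤ D by omega)
        simp only [dig]
        rw [slice_eq b, slice_eq (b * (D + 1)), slice_aux _ _ _ _ _ (by nlinarith), hM,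
          Nat.div_div_eq_div_mul, ← pow_mul, ← pow_add]
      have h1 := Pk.sl (Y := 2 ^ b) (M := M) (bd := bd) (fun e1 => mon D w (e1, t, n))
        (D + 1 - n - t) (fun i hi => by
          rw [hdig i hi, dig_eq _ _ _ _ _ _ (by omega) (by omega)]; exact h _)
      have h2 := h1.app (iht (by omega))
      rw [Finset.sum_congr rfl fun i hi => by rw [hdig i (Finset.mem_range.1 hi)]] at h2
      rw [Finset.sum_range_succ, ← add_assoc, add_comm (_ + _ : ℝ)]
      convert h2 using 1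
      simp only [Nat.add_eq, Nat.land_eq, Nat.shiftRight_eq, Nat.shiftLeft_eq']
      rw [Nat.and_two_pow_sub_one_eq_mod, Nat.shiftRight_eq_div_pow, Nat.shiftLeft_eq, pow_mul 2 b,
        List.length_map, List.length_range]

/-! matrices -/

def vadd {α : Type} (f : α → α → α) : List α → List α → List α
  | a :: l, b :: m => f a b :: vadd f l m
  | [], m => m
  | l, [] => l

abbrev Mat := List (List ℤ)

def madd (A B : Mat) : Mat := vadd (vadd (· + ·)) A B
def outer (c : ℤ) (u v : List ℤ) : Mat := u.map fun a => v.map fun b => c * a * b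
def mscale (c : ℤ) (A : Mat) : Mat := A.map fun r => r.map fun b => c * b

noncomputable def dz (r : List ℤ) (y : List ℝ) : ℝ := dot (r.map ((↑) : ℤ → ℝ)) y
noncomputable def bil (A : Mat) (x y : List ℝ) : ℝ := dot (A.map fun r => dz r y) x

theorem dz_vadd (r s : List ℤ) (y : List ℝ) : dz (vadd (· + ·) r s) y = dz r y + dz s y := by
  induction r generalizing s y with
  | nil => simp [vadd, dz, dot]
  | cons a r ih =>
    cases s with
    | nil => simp [vadd, dz, dot]
    | cons b s =>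
      cases y with
      | nil => simp [vadd, dz, dot]
      | cons c y =>
        have := ih s y
        simp only [vadd, dz, dot, List.map_cons] at this ⊢
        rw [this]; push_cast; ring

theorem bil_madd (A B : Mat) (x y : List ℝ) : bil (madd A B) x y = bil A x y + bil B x y := by
  induction A generalizing B x with
  | nil => simp [madd, vadd, bil, dot]
  | cons a A ih =>
    cases B with
    | nil => simp [madd, vadd, bil, dot]
    | cons b B =>
      cases x with
      | nil => simp [madd, vadd, bil, dot]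
      | cons c x =>
        have := ih B x
        simp only [madd, vadd, bil, dot, List.map_cons] at this ⊢
        rw [this, dz_vadd]; ring

theorem dz_map (c : ℤ) (r : List ℤ) (y : List ℝ) : dz (r.map fun b => c * b) y = c * dz r y := by
  induction r generalizing y with
  | nil => simp [dz, dot]
  | cons a r ih =>
    cases y with
    | nil => simp [dz, dot]
    | cons b y =>
      have := ih y
      simp only [dz, dot, List.map_cons] at this ⊢
      rw [this]; push_cast; ring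

theorem bil_mscale (c : ℤ) (A : Mat) (x y : List ℝ) : bil (mscale c A) x y = c * bil A x y := by
  induction A generalizing x with
  | nil => simp [mscale, bil, dot]
  | cons a A ih =>
    cases x with
    | nil => simp [mscale, bil, dot]
    | cons b x =>
      have := ih x
      simp only [mscale, bil, dot, List.map_cons] at this ⊢
      rw [this, dz_map]; ring

theorem bil_outer (c : ℤ) (u v : List ℤ) (x y : List ℝ) :
    bil (outer c u v) x y = c * dz u x * dz v y := by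
  induction u generalizing x with
  | nil => simp [outer, bil, dz, dot]
  | cons a u ih =>
    cases x with
    | nil => simp [outer, bil, dz, dot]
    | cons b x =>
      have := ih x
      have h2 := dz_map (c * a) v y
      simp only [outer, bil, dz, dot, List.map_cons] at this h2 ⊢
      rw [this, h2]; push_cast; ring

theorem dz_split (r : List ℤ) (y : List ℝ) : dz r y =
    dot ((r.map Int.toNat).map ((↑) : ℕ → ℝ)) y -
      dot ((r.map fun z => (-z).toNat).map ((↑) : ℕ → ℝ)) y := by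
  induction r generalizing y with
  | nil => simp [dz, dot]
  | cons a r ih =>
    cases y with
    | nil => simp [dz, dot]
    | cons b y =>
      have := ih y
      simp only [dz, dot, List.map_cons] at this ⊢
      have h : (a : ℝ) = (a.toNat : ℝ) - ((-a).toNat : ℝ) := by
        have := Int.toNat_sub_toNat_neg a
        exact_mod_cast this.symm
      rw [this, h]; ring

theorem dot_comm (x y : List ℝ) : dot x y = dot y x := by
  induction x generalizing y with
  | nil => cases y <;> simp [dot]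
  | cons a x ih => cases y with
    | nil => simp [dot]
    | cons b y => simp [dot, ih y, mul_comm]

theorem dot_sub {α : Type} (c : List ℝ) (l : List α) (f g : α → ℝ) :
    dot c (l.map fun a => f a - g a) = dot c (l.map f) - dot c (l.map g) := by
  induction c generalizing l with
  | nil => simp [dot]
  | cons a c ih => cases l with
    | nil => simp [dot]
    | cons b l => simp only [List.map_cons, dot, ih l]; ring

theorem dot_dec {α : Type} (I : List α) (u : α → ℕ → ℕ) (m : α → ℝ) (Ns : List ℕ) (g : List ℝ) :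
    dot (Ns.map fun N => (I.map fun e => (u e N : ℝ) * m e).sum) g =
      (I.map fun e => m e * dot ((Ns.map (u e)).map ((↑) : ℕ → ℝ)) g).sum := by
  induction Ns generalizing g with
  | nil => simp [dot]
  | cons N Ns ih => cases g with
    | nil => simp [dot]
    | cons b g =>
      simp only [List.map_cons, dot, ih g, mul_add, List.sum_map_add, ← List.sum_map_mul_right]
      congr 2
      exact List.map_congr_left fun e _ => by ring

/-! one leaf -/

structure Side where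
  m : Bool
  D : ℕ
  E : List (W4 ℕ)

def Side.tot (s : Side) (S : Q) : ℕ := (bas s.m s.E (pt S w1)).sum
def Side.ok (s : Side) : Bool := s.E.all fun e => deg s.m e == s.D
def Side.nums (s : Side) (S : Q) (b : ℕ) : List ℕ := bas s.m s.E (pt S (kap s.D b))

theorem Side.rp (s : Side) (S : Q) (b : ℕ) (h : s.ok = true) (w : W4 ℝ) : ∀ e ∈ s.E,
    Rp (kap s.D b) w s.D (mono (gens s.m (pt S (kap s.D b))) e) (mono (gens s.m (pt S w1)) e)
      (mono (gens s.m (pt S w)) e) := by
  simp only [Side.ok, List.all_eq_true, beq_iff_eq] at h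
  exact fun e he => (Rp.mono_gens S s.m e).cast (h e he)

theorem Side.le_tot (s : Side) (S : Q) : ∀ e ∈ s.E, mono (gens s.m (pt S w1)) e ≤ s.tot S :=
  fun _ he => List.le_sum_of_mem (List.mem_map_of_mem he)

theorem Side.sound (s : Side) (S : Q) (b : ℕ) (h : s.ok = true) (hb : s.tot S < 2 ^ b) (w : W4 ℝ) :
    bas s.m s.E (pt S w) = (s.nums S b).map (dec s.D b w) := by
  simp only [Side.nums, bas, List.map_map]
  exact List.map_congr_left fun e he =>
    (s.rp S b h w e he).eq_dec ((s.le_tot S e he).trans_lt hb)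

theorem Side.sound_sum (s : Side) (S : Q) (b : ℕ) (h : s.ok = true) (hb : s.tot S < 2 ^ b)
    (w : W4 ℝ) : (bas s.m s.E (pt S w)).sum = dec s.D b w (s.nums S b).sum :=
  (Rp.sum s.E _ _ _ (s.rp S b h w)).eq_dec hb

noncomputable def dotN (l : List ℕ) : List ℕ → ℕ :=
  List.rec (motive := fun _ => List ℕ → ℕ) (fun _ => 0) (fun a _ ih m =>
    List.rec (motive := fun _ => ℕ) 0 (fun b m' _ => Nat.add (Nat.mul a b) (ih m')) m) l

noncomputable def dotS (sh mask : ℕ) (l : List ℕ) : List ℕ → ℕ :=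
  List.rec (motive := fun _ => List ℕ → ℕ) (fun _ => 0) (fun a _ ih m =>
    List.rec (motive := fun _ => ℕ) 0 (fun b m' _ =>
      Nat.add (Nat.mul (Nat.land (Nat.shiftRight a sh) mask) b) (ih m')) m) l

noncomputable def mapS (sh mask : ℕ) (l : List ℕ) : List ℕ :=
  List.rec (motive := fun _ => List ℕ) [] (fun a _ ih => Nat.land (Nat.shiftRight a sh) mask :: ih) l

noncomputable def allN (n : ℕ) (f : ℕ → Bool) : Bool :=
  Nat.rec (motive := fun _ => Bool) true (fun i ih => Bool.rec false ih (f i)) n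

theorem dotN_eq (l m : List ℕ) : dotN l m = dot l m := by
  induction l generalizing m with
  | nil => rfl
  | cons a l ih => cases m with
    | nil => rfl
    | cons b m => exact congrArg (a * b + ·) (ih m)

theorem mapS_eq (s e : ℕ) (l : List ℕ) : mapS (s * e) (2 ^ s - 1) l = l.map (slice s e) := by
  induction l with
  | nil => rfl
  | cons a l ih => exact congrArg (slice s e a :: ·) ih

theorem dotS_eq (s e : ℕ) (l m : List ℕ) : dotS (s * e) (2 ^ s - 1) l m = dot (l.map (slice s e)) m := by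
  induction l generalizing m with
  | nil => rfl
  | cons a l ih => cases m with
    | nil => rfl
    | cons b m => exact congrArg (slice s e a * b + ·) (ih m)

theorem allN_spec {n : ℕ} {f : ℕ → Bool} (h : allN n f = true) : ∀ i < n, f i = true := by
  induction n with
  | zero => simp
  | succ n ih =>
    have h' : (Bool.rec false (allN n f) (f n) : Bool) = true := h
    intro i hi
    cases hf : f n with
    | false => rw [hf] at h'; cases h'
    | true =>
      rw [hf] at h'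
      rcases Nat.lt_succ_iff_lt_or_eq.1 hi with h1 | rfl
      · exact ih h' i h1
      · exact hf

noncomputable def rowsOK (D b : ℕ) (N0 : ℕ) (Ns H : List ℕ) (OO T : ℕ) : Bool :=
  allN (D + 1) fun e3 => (fun (N3 : ℕ) (S3 : List ℕ) => Nat.beq (N3 + S3.sum) 0 ||
    allN (D + 1 - e3) fun e2 => (fun (N2 : ℕ) (S2 : List ℕ) => Nat.beq (N2 + S2.sum) 0 ||
      allN (D + 1 - e3 - e2) fun e1 => Nat.beq (Nat.land (Nat.sub (Nat.add
        (dotS (b * e1) (2 ^ b - 1) S2 H) T) (Nat.mul (slice b e1 N2) OO)) T) T)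
      (slice (b * (D + 1)) e2 N3) (mapS (b * (D + 1) * e2) (2 ^ (b * (D + 1)) - 1) S3))
    (slice (b * (D + 1) * (D + 1)) e3 N0)
    (mapS (b * (D + 1) * (D + 1) * e3) (2 ^ (b * (D + 1) * (D + 1)) - 1) Ns)

theorem slice_zero (s e : ℕ) : slice s e 0 = 0 := by simp [slice_eq]

theorem rowsOK_spec {D b N0 : ℕ} {Ns H : List ℕ} {OO T : ℕ} (h : rowsOK D b N0 Ns H OO T = true)
    (e : ℕ × ℕ × ℕ) (he : e ∈ idx D) : (dig D b e N0 = 0 ∧ ∀ N ∈ Ns, dig D b e N = 0) ∨
      (dot (Ns.map (dig D b e)) H + T - dig D b e N0 * OO) &&& T = T := by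
  simp only [idx, List.mem_flatMap, List.mem_map, List.mem_range] at he
  obtain ⟨e3, h3, e2, h2, e1, h1, rfl⟩ := he
  have k3 := allN_spec h e3 h3
  simp only [Bool.or_eq_true, Nat.beq_eq, mapS_eq, Nat.add_eq_zero_iff, List.sum_eq_zero_iff,
    List.forall_mem_map] at k3
  rcases k3 with k3 | k3
  · exact Or.inl ⟨by simp [dig, k3.1, slice_zero], fun N hN => by simp [dig, k3.2 N hN, slice_zero]⟩
  have k2 := allN_spec k3 e2 h2
  simp only [Bool.or_eq_true, Nat.beq_eq, Nat.add_eq_zero_iff, List.sum_eq_zero_iff,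
    List.forall_mem_map] at k2
  rcases k2 with k2 | k2
  · exact Or.inl ⟨by simp [dig, k2.1, slice_zero], fun N hN => by simp [dig, k2.2 N hN, slice_zero]⟩
  have k1 := allN_spec k2 e1 h1
  rw [Nat.beq_eq, dotS_eq, List.map_map, List.map_map] at k1
  exact Or.inr k1

def msum (M : Mat) : ℕ := (M.map fun r => (r.map Int.natAbs).sum).sum

noncomputable def leafC (sA sB : Side) (M : Mat) (A B : Q) (bA O k : ℕ) : Bool :=
  (fun (pk NA : List ℕ) (on : ℕ) => (fun OO : ℕ =>
    rowsOK sA.D bA NA.sum NA (M.map fun r => Nat.sub (Nat.add (dotN (r.map Int.toNat) pk) OO)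
      (dotN (r.map fun z => (-z).toNat) pk)) OO (2 ^ k * on)) (O * on))
    ((sB.nums B (k + 1)).map (repack sB.D (k + 1))) (sA.nums A bA) (ones (2 ^ (k + 1)) (cnt sB.D))

noncomputable def leafB (sA sB : Side) (M : Mat) (A B : Q) (bA k : ℕ) : Bool :=
  sA.ok && sB.ok && Nat.blt (sA.tot A) (2 ^ bA) && Nat.blt (sB.tot B) (2 ^ (k + 1)) &&
  Nat.beq M.length sA.E.length &&
  Nat.blt ((sA.E.length + 1) * 2 ^ bA * (2 * (msum M * sB.tot B))) (2 ^ k) &&
  leafC sA sB M A B bA (msum M * sB.tot B) k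

def W4.nn (w : W4 ℝ) : Prop := 0 ≤ w.a ∧ 0 ≤ w.b ∧ 0 ≤ w.c ∧ 0 ≤ w.d

theorem mon_nonneg (D : ℕ) {w : W4 ℝ} (hw : w.nn) (e) : 0 ≤ mon D w e := by
  obtain ⟨h1, h2, h3, h4⟩ := hw
  unfold mon; positivity

theorem dot_off {α : Type} (c : List ℝ) (l : List α) (f : α → ℝ) (o : ℝ) (h : l.length = c.length) :
    dot c (l.map f) = dot c (l.map fun a => f a + o) - c.sum * o := by
  induction c generalizing l with
  | nil => simp [dot]
  | cons a c ih => cases l with
    | nil => simp at h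
    | cons b l => simp only [List.map_cons, dot, ih l (by simpa using h), List.sum_cons]; ring

theorem dot_zero (l : List ℕ) (u : ℕ → ℕ) (h : ∀ N ∈ l, u N = 0) (g : List ℝ) :
    dot ((l.map u).map ((↑) : ℕ → ℝ)) g = 0 := by
  induction l generalizing g with
  | nil => simp [dot]
  | cons a l ih => cases g with
    | nil => simp [dot]
    | cons b g =>
      simp only [List.map_cons, dot, h a (by simp), ih (fun N hN => h N (by simp [hN])) g]
      simp

theorem leafB_sound {sA sB : Side} {M : Mat} {A B : Q} {bA k : ℕ}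
    (h : leafB sA sB M A B bA k = true) {v w : W4 ℝ} (hv : v.nn) (hw : w.nn) :
    0 ≤ bil M (bas sA.m sA.E (pt A v)) (bas sB.m sB.E (pt B w)) := by
  simp only [leafB, leafC, Bool.and_eq_true, Nat.blt_eq, Nat.beq_eq] at h
  obtain ⟨⟨⟨⟨⟨⟨hA, hB⟩, hA'⟩, hB'⟩, hlen⟩, hbd⟩, hrows⟩ := h
  set ms := msl sB.D (mon sB.D w)
  set O := msum M * sB.tot B
  rw [bil, dot_comm, dot_off _ _ _ (O * ms.sum) (by simp [bas, hlen]), sA.sound_sum A bA hA hA',
    sA.sound A bA hA hA', sB.sound B (k + 1) hB hB']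
  set NA := sA.nums A bA
  set NB := sB.nums B (k + 1)
  rw [show dec sA.D bA v = fun N => ((idx sA.D).map fun e =>
    (dig sA.D bA e N : ℝ) * mon sA.D v e).sum from rfl, dot_dec]
  simp only
  rw [← List.sum_map_mul_right, sub_nonneg]
  refine List.sum_le_sum fun e he => ?_
  rw [mul_comm (_ : ℝ) (mon sA.D v e), mul_assoc]
  refine mul_le_mul_of_nonneg_left ?_ (mon_nonneg _ hv e)
  rcases rowsOK_spec hrows e he with ⟨h0, h1⟩ | hrow
  · rw [h0, dot_zero _ _ h1]; simp
  rw [← msl_length sB.D (mon sB.D w)] at hrow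
  have hpk : ∀ N ∈ NB, Pk (2 ^ (k + 1)) ms (repack sB.D (k + 1) N) (dec sB.D (k + 1) w N)
      (sB.tot B) := by
    simp only [NB, Side.nums, bas, List.forall_mem_map]
    intro e he
    exact pk_repack _ _ _ _ _ fun p => ((sB.rp B (k + 1) hB w e he).dig_le
      ((sB.le_tot B e he).trans_lt hB') p).trans (sB.le_tot B e he)
  have hsum : ∀ (φ : ℤ → ℕ), (∀ z, φ z ≤ z.natAbs) → ∀ r ∈ M, (r.map φ).sum ≤ msum M := by
    intro φ hφ r hr
    refine le_trans (List.sum_le_sum fun z _ => hφ z) ?_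
    exact List.le_sum_of_mem (List.mem_map_of_mem (f := fun r => (r.map Int.natAbs).sum) hr)
  have hcol : (NA.map (dig sA.D bA e)).sum ≤ (sA.E.length + 1) * 2 ^ bA := by
    have := List.sum_le_card_nsmul (NA.map (dig sA.D bA e)) (2 ^ bA) (by
      simp only [List.forall_mem_map]; exact fun N _ => (dig_lt _ _ _ _).le)
    have h2 : (NA.map (dig sA.D bA e)).length = sA.E.length := by simp [NA, Side.nums, bas]
    rw [h2, smul_eq_mul] at this
    nlinarith [Nat.zero_le (2 ^ bA)]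
  have row : ∀ (φ : ℤ → ℕ), (∀ z, φ z ≤ z.natAbs) → ∀ r ∈ M, Pk (2 ^ (k + 1)) ms _ _ O :=
    fun φ hφ r hr => (Pk.dot' NB _ _ _ hpk (r.map φ)).mono' (Nat.mul_le_mul_right _ (hsum φ hφ r hr))
  have m1 := (Pk.dot' M _ _ _ (fun r hr => (row Int.toNat (fun z => by omega) r hr).off
    (row (fun z => (-z).toNat) (fun z => by omega) r hr)) (NA.map (dig sA.D bA e))).mono'
    (Nat.mul_le_mul_right _ hcol)
  have m2 := (Pk.madd (dig sA.D bA e NA.sum) (Pk.ones' (Y := 2 ^ (k + 1)) ms O)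
    (Pk.zero ms 0)).mono' (b' := (sA.E.length + 1) * 2 ^ bA * (2 * O)) (by
      have := (dig_lt sA.D bA e NA.sum).le
      have h3 : dig sA.D bA e NA.sum ≤ (sA.E.length + 1) * 2 ^ bA := by nlinarith
      nlinarith [Nat.mul_le_mul_right O h3])
  simp only [add_zero] at m2
  simp only [dotN_eq] at hrow
  have := Pk.cmp (msl_nonneg _ _ (mon_nonneg _ hw)) m1 m2 hbd hrow
  simp only [dz_split]
  exact_mod_cast this

/-! bisection trees -/

inductive Tr
  | L (mu : ℕ)
  | N (side : Bool) (e al be : ℕ) (l r : Tr)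

def frc {β : Type} (n : ℕ) (k : ℕ → β) : β := Nat.casesOn n (k 0) fun m => k (Nat.succ m)

theorem frc_eq {β : Type} (n : ℕ) (k : ℕ → β) : frc n k = k n := by cases n <;> rfl

def comb {β : Type} (al be : ℕ) (u v : W4 ℕ) (k : W4 ℕ → β) : β :=
  frc (al * u.a + be * v.a) fun a => frc (al * u.b + be * v.b) fun b =>
    frc (al * u.c + be * v.c) fun c => frc (al * u.d + be * v.d) fun d => k ⟨a, b, c, d⟩

def split {β : Type} (e al be : ℕ) (S : Q) (k : Q → Q → β) : β :=
  match S with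
  | ⟨a, b, c, d⟩ =>
    match e with
    | 0 => comb al be a b fun n => k ⟨a, n, c, d⟩ ⟨n, b, c, d⟩
    | 1 => comb al be a c fun n => k ⟨a, b, n, d⟩ ⟨n, b, c, d⟩
    | 2 => comb al be a d fun n => k ⟨a, b, c, n⟩ ⟨n, b, c, d⟩
    | 3 => comb al be b c fun n => k ⟨a, b, n, d⟩ ⟨a, n, c, d⟩
    | 4 => comb al be b d fun n => k ⟨a, b, c, n⟩ ⟨a, n, c, d⟩
    | _ => comb al be c d fun n => k ⟨a, b, c, n⟩ ⟨a, b, n, d⟩

def cone (S : Q) (x : W4 ℝ) : Prop := ∃ w : W4 ℝ, w.nn ∧ pt S w = x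

theorem cover2 {p q al be : ℝ} (hp : 0 ≤ p) (hq : 0 ≤ q) (ha : 0 < al) (hb : 0 < be) :
    ∃ s t : ℝ, 0 ≤ s ∧ 0 ≤ t ∧ ((p = s + t * al ∧ q = t * be) ∨ (p = s * al ∧ q = s * be + t)) := by
  rcases le_total (q * al) (p * be) with h | h
  · refine ⟨p - q / be * al, q / be, ?_, by positivity, Or.inl ⟨by ring, by field_simp⟩⟩
    rw [sub_nonneg, div_mul_eq_mul_div, div_le_iff₀ hb]; exact h
  · refine ⟨p / al, q - p / al * be, by positivity, ?_, Or.inr ⟨by field_simp, by ring⟩⟩
    rw [sub_nonneg, div_mul_eq_mul_div, div_le_iff₀ ha]; exact h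

theorem split_spec (e al be : ℕ) (S : Q) : ∃ S1 S2 : Q,
    (∀ {β : Type} (k : Q → Q → β), split e (al + 1) (be + 1) S k = k S1 S2) ∧
    ∀ x, cone S x → cone S1 x ∨ cone S2 x := by
  obtain ⟨a, b, c, d⟩ := S
  have ha : (0 : ℝ) < al + 1 := by positivity
  have hb : (0 : ℝ) < be + 1 := by positivity
  rcases e with _ | _ | _ | _ | _ | e
  all_goals
    refine ⟨_, _, fun k => by simp only [split, comb, frc_eq]; rfl, ?_⟩
    rintro x ⟨⟨w0, w1, w2, w3⟩, ⟨h0, h1, h2, h3⟩, rfl⟩
    dsimp only at h0 h1 h2 h3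
  · obtain ⟨s, t, hs, ht, ⟨rfl, rfl⟩ | ⟨rfl, rfl⟩⟩ := cover2 h0 h1 ha hb
    · exact Or.inl ⟨⟨s, t, w2, w3⟩, ⟨hs, ht, h2, h3⟩, by
        simp only [pt, W4.mk.injEq]; push_cast; refine ⟨?_, ?_, ?_, ?_⟩ <;> ring⟩
    · exact Or.inr ⟨⟨s, t, w2, w3⟩, ⟨hs, ht, h2, h3⟩, by
        simp only [pt, W4.mk.injEq]; push_cast; refine ⟨?_, ?_, ?_, ?_⟩ <;> ring⟩
  · obtain ⟨s, t, hs, ht, ⟨rfl, rfl⟩ | ⟨rfl, rfl⟩⟩ := cover2 h0 h2 ha hb
    · exact Or.inl ⟨⟨s, w1, t, w3⟩, ⟨hs, h1, ht, h3⟩, by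
        simp only [pt, W4.mk.injEq]; push_cast; refine ⟨?_, ?_, ?_, ?_⟩ <;> ring⟩
    · exact Or.inr ⟨⟨s, w1, t, w3⟩, ⟨hs, h1, ht, h3⟩, by
        simp only [pt, W4.mk.injEq]; push_cast; refine ⟨?_, ?_, ?_, ?_⟩ <;> ring⟩
  · obtain ⟨s, t, hs, ht, ⟨rfl, rfl⟩ | ⟨rfl, rfl⟩⟩ := cover2 h0 h3 ha hb
    · exact Or.inl ⟨⟨s, w1, w2, t⟩, ⟨hs, h1, h2, ht⟩, by
        simp only [pt, W4.mk.injEq]; push_cast; refine ⟨?_, ?_, ?_, ?_⟩ <;> ring⟩
    · exact Or.inr ⟨⟨s, w1, w2, t⟩, ⟨hs, h1, h2, ht⟩, by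
        simp only [pt, W4.mk.injEq]; push_cast; refine ⟨?_, ?_, ?_, ?_⟩ <;> ring⟩
  · obtain ⟨s, t, hs, ht, ⟨rfl, rfl⟩ | ⟨rfl, rfl⟩⟩ := cover2 h1 h2 ha hb
    · exact Or.inl ⟨⟨w0, s, t, w3⟩, ⟨h0, hs, ht, h3⟩, by
        simp only [pt, W4.mk.injEq]; push_cast; refine ⟨?_, ?_, ?_, ?_⟩ <;> ring⟩
    · exact Or.inr ⟨⟨w0, s, t, w3⟩, ⟨h0, hs, ht, h3⟩, by
        simp only [pt, W4.mk.injEq]; push_cast; refine ⟨?_, ?_, ?_, ?_⟩ <;> ring⟩
  · obtain ⟨s, t, hs, ht, ⟨rfl, rfl⟩ | ⟨rfl, rfl⟩⟩ := cover2 h1 h3 ha hb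
    · exact Or.inl ⟨⟨w0, s, w2, t⟩, ⟨h0, hs, h2, ht⟩, by
        simp only [pt, W4.mk.injEq]; push_cast; refine ⟨?_, ?_, ?_, ?_⟩ <;> ring⟩
    · exact Or.inr ⟨⟨w0, s, w2, t⟩, ⟨h0, hs, h2, ht⟩, by
        simp only [pt, W4.mk.injEq]; push_cast; refine ⟨?_, ?_, ?_, ?_⟩ <;> ring⟩
  · obtain ⟨s, t, hs, ht, ⟨rfl, rfl⟩ | ⟨rfl, rfl⟩⟩ := cover2 h2 h3 ha hb
    · exact Or.inl ⟨⟨w0, w1, s, t⟩, ⟨h0, h1, hs, ht⟩, by
        simp only [pt, W4.mk.injEq]; push_cast; refine ⟨?_, ?_, ?_, ?_⟩ <;> ring⟩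
    · exact Or.inr ⟨⟨w0, w1, s, t⟩, ⟨h0, h1, hs, ht⟩, by
        simp only [pt, W4.mk.injEq]; push_cast; refine ⟨?_, ?_, ?_, ?_⟩ <;> ring⟩

def leaves : Tr → Q → Q → List (Q × Q × ℕ) → List (Q × Q × ℕ)
  | .L mu, A, B, acc => (A, B, mu) :: acc
  | .N s e al be l r, A, B, acc =>
    cond s (split e (al + 1) (be + 1) B fun B1 B2 => leaves l A B1 (leaves r A B2 acc))
      (split e (al + 1) (be + 1) A fun A1 A2 => leaves l A1 B (leaves r A2 B acc))

theorem leaves_spec (t : Tr) (A B : Q) (acc : List (Q × Q × ℕ)) (f : Q × Q × ℕ → Bool)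
    (h : (leaves t A B acc).all f = true) : acc.all f = true ∧
      ∀ x y, cone A x → cone B y → ∃ l, f l = true ∧ cone l.1 x ∧ cone l.2.1 y := by
  induction t generalizing A B acc with
  | L mu =>
    simp only [leaves, List.all_cons, Bool.and_eq_true] at h
    exact ⟨h.2, fun x y hx hy => ⟨_, h.1, hx, hy⟩⟩
  | N s e al be l r ihl ihr =>
    cases s
    · obtain ⟨S1, S2, h1, h2⟩ := split_spec e al be A
      simp only [leaves, cond_false, h1] at h
      obtain ⟨k1, k2⟩ := ihl _ _ _ h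
      obtain ⟨k3, k4⟩ := ihr _ _ _ k1
      exact ⟨k3, fun x y hx hy => (h2 x hx).elim (fun hx => k2 x y hx hy) fun hx => k4 x y hx hy⟩
    · obtain ⟨S1, S2, h1, h2⟩ := split_spec e al be B
      simp only [leaves, cond_true, h1] at h
      obtain ⟨k1, k2⟩ := ihl _ _ _ h
      obtain ⟨k3, k4⟩ := ihr _ _ _ k1
      exact ⟨k3, fun x y hx hy => (h2 y hy).elim (fun hy => k2 x y hx hy) fun hy => k4 x y hx hy⟩

noncomputable def leafOK (sA sB : Side) (M Con : Mat) (l : Q × Q × ℕ) : Bool :=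
  (fun M' : Mat => frc (Nat.log2 (sA.tot l.1) + 1) fun bA =>
    frc (Nat.log2 ((sA.E.length + 1) * 2 ^ bA * (2 * (msum M' * sB.tot l.2.1))) + 1) fun k =>
      leafB sA sB M' l.1 l.2.1 bA k)
    (Nat.casesOn l.2.2 M fun m => madd M (mscale (Int.negSucc m) Con))

theorem tree_sound {sA sB : Side} {M Con : Mat} {t : Tr} {A B : Q}
    (h : ((leaves t A B []).drop 0).all (leafOK sA sB M Con) = true) {x y : W4 ℝ} (hx : cone A x)
    (hy : cone B y) (hc : 0 ≤ bil Con (bas sA.m sA.E x) (bas sB.m sB.E y)) :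
    0 ≤ bil M (bas sA.m sA.E x) (bas sB.m sB.E y) := by
  obtain ⟨⟨A', B', mu⟩, h1, ⟨v, hv, rfl⟩, ⟨w, hw, rfl⟩⟩ := (leaves_spec _ _ _ _ _ h).2 x y hx hy
  simp only [leafOK, frc_eq] at h1
  have := leafB_sound h1 hv hw
  cases mu with
  | zero => exact this
  | succ m =>
    simp only [bil_madd, bil_mscale] at this
    have h2 : ((Int.negSucc m : ℤ) : ℝ) ≤ 0 := by exact_mod_cast (Int.negSucc_lt_zero m).le
    nlinarith

theorem chunk {α : Type} (L : List α) (f : α → Bool) (i n : ℕ)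
    (h1 : ((L.drop i).take n).all f = true) (h2 : (L.drop (i + n)).all f = true) :
    (L.drop i).all f = true := by
  rw [← List.take_append_drop n (L.drop i), List.all_append, h1, List.drop_drop, h2]
  rfl

end Vale.Agent.P154
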