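import Vale.Agent.P154.Spec
import Vale.Agent.P154.Chk2

namespace Vale.Agent.P154

variable {q : ℕ}

noncomputable def msym (lam : Fin q → ℕ) (a : Fin q → ℝ) : ℝ :=
  ∑ π : Equiv.Perm (Fin q), ∏ i, a (π i) ^ lam i

theorem msym_avg (lam : Fin q → ℕ) (a b : Fin q → ℝ) :
    ∑ σ : Equiv.Perm (Fin q), msym lam (fun i => a i * b (σ i)) = msym lam a * msym lam b := by
  unfold msym
  rw [Finset.sum_comm, Finset.sum_mul]
  refine Finset.sum_congr rfl fun π _ => ?_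
  rw [Finset.mul_sum, ← Equiv.sum_comp (Equiv.mulRight π)
    (fun σ : Equiv.Perm (Fin q) => (∏ i, a (π i) ^ lam i) * ∏ i, b (σ i) ^ lam i)]
  refine Finset.sum_congr rfl fun σ _ => ?_
  simp [mul_pow, Finset.prod_mul_distrib]

theorem msym_smul (lam : Fin q → ℕ) (Z : ℝ) (a : Fin q → ℝ) :
    msym lam (fun i => Z * a i) = Z ^ (∑ i, lam i) * msym lam a := by
  unfold msym
  rw [Finset.mul_sum]
  refine Finset.sum_congr rfl fun π _ => ?_
  simp [mul_pow, Finset.prod_mul_distrib, Finset.prod_pow_eq_pow_sum]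

theorem amgm {a b m : ℝ} (ha : 0 ≤ a) (hb : 0 ≤ b) (hm : 0 ≤ m) :
    3 * m ^ 2 * (a * b) ≤ (a * b) ^ 2 + m ^ 3 * (a + b) := by
  obtain ⟨s, hs, rfl⟩ : ∃ s, 0 ≤ s ∧ a = s ^ 2 := ⟨√a, Real.sqrt_nonneg a, (Real.sq_sqrt ha).symm⟩
  obtain ⟨r, hr, rfl⟩ : ∃ s, 0 ≤ s ∧ b = s ^ 2 := ⟨√b, Real.sqrt_nonneg b, (Real.sq_sqrt hb).symm⟩
  have h1 : 0 ≤ m ^ 3 * (s - r) ^ 2 := by positivity
  have h2 : 0 ≤ s * r * (s * r - m) ^ 2 * (s * r + 2 * m) := by positivity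
  nlinarith

theorem decomp (hq : 0 < q) {a b : Fin q → ℝ} (ha : a ∈ Sx q) (hb : b ∈ Sx q)
    (σ : Equiv.Perm (Fin q)) (f : (Fin q → ℝ) → ℝ) : ∃ (Z : ℝ) (a' : Fin q → ℝ), a' ∈ Sx q ∧ 0 ≤ Z ∧
      Z ≤ q ∧ q * Z ≤ ∑ i, a' i ^ 2 ∧ (fun i => a i * b (σ i)) = (fun i => Z * a' i) ∧
      hom f (fun i => a i * b (σ i)) = Z * f a' := by
  have hq' : (0 : ℝ) < q := by exact_mod_cast hq
  set u : Fin q → ℝ := fun i => a i * b (σ i) with hu
  have hu0 : ∀ i, 0 ≤ u i := fun i => mul_nonneg (ha.1 i) (hb.1 _)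
  have hs0 : 0 ≤ ∑ i, u i := Finset.sum_nonneg fun i _ => hu0 i
  have hbσ : ∑ i, b (σ i) = q := by rw [Equiv.sum_comp σ b]; exact hb.2
  rcases hs0.eq_or_lt with h0 | hpos
  · have hz : ∀ i, u i = 0 := fun i =>
      (Finset.sum_eq_zero_iff_of_nonneg fun i _ => hu0 i).1 h0.symm i (Finset.mem_univ i)
    refine ⟨0, fun _ => 1, ⟨fun _ => zero_le_one, by simp⟩, le_rfl, hq'.le, by simp, ?_, ?_⟩
    · funext i; simp [hz i]
    · simp [hom, mean, ← h0]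
  · have hZ : 0 < mean u := div_pos hpos hq'
    have hZq : q * mean u = ∑ i, u i := by unfold mean; field_simp
    refine ⟨mean u, fun i => u i / mean u, ⟨fun i => div_nonneg (hu0 i) hZ.le, ?_⟩, hZ.le, ?_, ?_,
      ?_, rfl⟩
    · rw [← Finset.sum_div, ← hZq]; field_simp
    · have : ∑ i, u i ≤ ∑ i, a i * q := Finset.sum_le_sum fun i _ =>
        mul_le_mul_of_nonneg_left (hb.2 ▸ Finset.single_le_sum (fun j _ => hb.1 j)
          (Finset.mem_univ (σ i))) (ha.1 i)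
      rw [← Finset.sum_mul, ha.2, ← hZq] at this
      exact le_of_mul_le_mul_left this hq'
    · have h1 : ∑ i, 3 * mean u ^ 2 * u i ≤ ∑ i, (u i ^ 2 + mean u ^ 3 * (a i + b (σ i))) :=
        Finset.sum_le_sum fun i _ => amgm (ha.1 i) (hb.1 _) hZ.le
      rw [← Finset.mul_sum, Finset.sum_add_distrib, ← Finset.mul_sum, Finset.sum_add_distrib, ha.2,
        hbσ, ← hZq] at h1
      simp only [div_pow]
      rw [← Finset.sum_div, le_div_iff₀ (by positivity)]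
      nlinarith
    · funext i; field_simp

structure Tm where
  lam : W4 ℕ
  den : ℕ
  L : List ℤ

def Tm.n (τ : Tm) : ℕ := deg false τ.lam
def Tm.r (q D : ℕ) (τ : Tm) : ℤ := τ.den * (q : ℤ) ^ (D - τ.n)

def ei : ℕ → List ℤ
  | 0 => [1]
  | n + 1 => 0 :: ei n

theorem dz_ei (i : ℕ) (l : List ℝ) : dz (ei i) l = l.getD i 0 := by
  induction i generalizing l with
  | zero => cases l <;> simp [dz, ei, dot]
  | succ i ih => cases l with
    | nil => simp [dz, ei, dot]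
    | cons a l => simpa [dz, ei, dot] using ih l

def sZ (J : ℕ) : Side := ⟨false, J, (List.range (J + 1)).map fun i => ⟨J - i, i, 0, 0⟩⟩
def rZ (q : ℕ) : Q := ⟨⟨1, 0, 0, 0⟩, ⟨1, q, 0, 0⟩, ⟨0, 0, 0, 0⟩, ⟨0, 0, 0, 0⟩⟩
def sT : Side := ⟨false, 0, [⟨0, 0, 0, 0⟩]⟩
def rT : Q := ⟨⟨0, 0, 0, 0⟩, ⟨0, 0, 0, 0⟩, ⟨0, 0, 0, 0⟩, ⟨0, 0, 0, 0⟩⟩

theorem dz_sZ (J i : ℕ) (h : i ≤ J) (Z : ℝ) :
    dz (ei i) (bas (sZ J).m (sZ J).E ⟨1, Z, 0, 0⟩) = Z ^ i := by
  rw [dz_ei]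
  simp [sZ, bas, List.getD_eq_getElem?_getD, List.getElem?_range (Nat.lt_succ_of_le h), mono, gens]

theorem cone_rZ (hq : 0 < q) {Z : ℝ} (h0 : 0 ≤ Z) (h1 : Z ≤ q) : cone (rZ q) ⟨1, Z, 0, 0⟩ := by
  have hq' : (0 : ℝ) < q := by exact_mod_cast hq
  refine ⟨⟨1 - Z / q, Z / q, 0, 0⟩, ⟨?_, by positivity, le_rfl, le_rfl⟩, ?_⟩
  · rw [sub_nonneg, div_le_one hq']; exact h1
  · simp [pt, rZ]; field_simp

def mkG0 (ts : List (ℤ × Tm)) : Mat :=
  ts.foldr (fun p M => madd (outer p.1 p.2.L p.2.L) M) []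

def mkH (q D J : ℕ) (Sp : ℤ) (fv : List ℤ) (ts : List (ℤ × Tm)) : Mat :=
  madd (outer Sp (ei 1) fv) (ts.foldr
    (fun p M => madd (outer (-(p.1 * p.2.r q D)) (ei p.2.n) p.2.L) M) (List.replicate (J + 1) []))

def mkCon (q : ℕ) (cs : ℤ) (i0 i2 : ℕ) : Mat :=
  madd (madd (outer (cs * q) (ei 0) (ei i2)) (madd (outer (-2 * cs * q) (ei 1) (ei i2))
    (outer (cs * q) (ei 2) (ei i2)))) (madd (outer (-cs) (ei 1) (ei i0))
    (madd (outer (2 * cs) (ei 2) (ei i0)) (outer (-cs) (ei 3) (ei i0))))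

theorem bil_rep (n : ℕ) (x y : List ℝ) : bil (List.replicate n []) x y = 0 := by
  induction n generalizing x with
  | zero => simp [bil, dot]
  | succ n ih => cases x with
    | nil => simp [bil, dot, List.replicate_succ]
    | cons a x =>
      have := ih x
      simp only [bil, List.replicate_succ, List.map_cons, dot] at this ⊢
      rw [this]; simp [dz, dot]

theorem bil_foldr {α : Type} (ts : List α) (f : α → Mat) (M0 : Mat) (x y : List ℝ) :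
    bil (ts.foldr (fun p M => madd (f p) M) M0) x y =
      (ts.map fun p => bil (f p) x y).sum + bil M0 x y := by
  induction ts with
  | nil => simp
  | cons a l ih => simp [bil_madd, ih, add_assoc]

theorem list_sum_comm {α β : Type} [Fintype β] (l : List α) (g : α → β → ℝ) :
    (l.map fun a => ∑ b, g a b).sum = ∑ b, (l.map fun a => g a b).sum := by
  induction l with
  | nil => simp
  | cons a l ih => simp [ih, Finset.sum_add_distrib]

/-- the environment of one alphabet size -/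
structure Env (q : ℕ) where
  s : Side
  R : Q
  J : ℕ
  i0 : ℕ
  i2 : ℕ
  tab : List Tm
  F : (Fin q → ℝ) → List ℝ
  lamf : Tm → Fin q → ℕ
  hq : 0 < q
  hJ : 3 ≤ J
  hD : 2 ≤ s.D
  hsort : ∀ a ∈ Sx q, ∃ x, cone R x ∧ bas s.m s.E x = F a
  hL : ∀ τ ∈ tab, τ.n ≤ J ∧ ∑ i, lamf τ i = τ.n ∧
    ∀ a ∈ Sx q, (τ.r q s.D : ℝ) * msym (lamf τ) a = dz τ.L (F a)
  h0 : ∀ a ∈ Sx q, dz (ei i0) (F a) = (q : ℝ) ^ s.D
  h2 : ∀ a ∈ Sx q, dz (ei i2) (F a) = (q : ℝ) ^ (s.D - 2) * ∑ i, a i ^ 2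

theorem Env.two (V : Env q) {M : Mat} {t : Tr}
    (h : ((leaves t V.R V.R []).drop 0).all (leafOK V.s V.s M []) = true) :
    ∀ a ∈ Sx q, ∀ b ∈ Sx q, 0 ≤ bil M (V.F a) (V.F b) := by
  intro a ha b hb
  obtain ⟨x, hx, h1⟩ := V.hsort a ha
  obtain ⟨y, hy, h2⟩ := V.hsort b hb
  rw [← h1, ← h2]
  exact tree_sound h hx hy (by simp [bil, dot])

theorem Env.one (V : Env q) {v : List ℤ} {t : Tr}
    (h : ((leaves t rT V.R []).drop 0).all (leafOK sT V.s [v] []) = true) :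
    ∀ a ∈ Sx q, 0 ≤ dz v (V.F a) := by
  intro a ha
  obtain ⟨y, hy, h2⟩ := V.hsort a ha
  have := tree_sound h (x := ⟨0, 0, 0, 0⟩) ⟨⟨0, 0, 0, 0⟩, by simp [W4.nn], by simp [pt]⟩ hy
    (by simp [bil, dot])
  rw [h2] at this
  simpa [bil, dot, sT, bas, mono] using this

theorem Env.lower (V : Env q) (cs : List ℤ) (Sp c0 : ℤ) (hc0 : 0 ≤ c0) (fv : List ℤ)
    (f : (Fin q → ℝ) → ℝ) (hf : ∀ a ∈ Sx q, dz fv (V.F a) = (q : ℝ) ^ V.s.D * f a) {t : Tr}
    (h : ((leaves t (rZ q) V.R []).drop 0).all (leafOK (sZ V.J) V.s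
      (mkH q V.s.D V.J Sp fv (cs.zip V.tab)) (mkCon q c0 V.i0 V.i2)) = true) :
    ∀ a ∈ Sx q, ∀ b ∈ Sx q, bil (mkG0 (cs.zip V.tab)) (V.F a) (V.F b) ≤
      Sp * (q : ℝ) ^ V.s.D * ∑ σ : Equiv.Perm (Fin q), hom f (fun i => a i * b (σ i)) := by
  intro a ha b hb
  have hq' : (0 : ℝ) < q := by exact_mod_cast V.hq
  have hmem : ∀ p ∈ cs.zip V.tab, p.2 ∈ V.tab := fun p hp => (List.of_mem_zip hp).2
  have e1 : bil (mkG0 (cs.zip V.tab)) (V.F a) (V.F b) = ∑ σ : Equiv.Perm (Fin q),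
      ((cs.zip V.tab).map fun p => (p.1 : ℝ) * (p.2.r q V.s.D : ℝ) ^ 2 *
        msym (V.lamf p.2) (fun i => a i * b (σ i))).sum := by
    rw [mkG0, bil_foldr, ← list_sum_comm]
    simp only [bil_outer, show bil [] (V.F a) (V.F b) = 0 by simp [bil, dot], add_zero]
    congr 1
    refine List.map_congr_left fun p hp => ?_
    obtain ⟨-, -, h3⟩ := V.hL _ (hmem p hp)
    rw [← Finset.mul_sum, msym_avg, ← h3 a ha, ← h3 b hb]; ring
  rw [e1, Finset.mul_sum]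
  refine Finset.sum_le_sum fun σ _ => ?_
  obtain ⟨Z, a', ha', hZ0, hZq, hcon, hu, hh⟩ := decomp V.hq ha hb σ f
  rw [hh, hu]
  obtain ⟨y, hy, h2⟩ := V.hsort a' ha'
  have hJ := V.hJ
  have key := tree_sound h (cone_rZ V.hq hZ0 hZq) hy (by
    rw [h2]
    simp only [mkCon, bil_madd, bil_outer, dz_sZ _ _ (show 0 ≤ V.J by omega),
      dz_sZ _ _ (show 1 ≤ V.J by omega), dz_sZ _ _ (show 2 ≤ V.J by omega), dz_sZ _ _ hJ,
      V.h0 a' ha', V.h2 a' ha']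
    obtain ⟨d, hd⟩ := Nat.exists_eq_add_of_le V.hD
    rw [hd, Nat.add_sub_cancel_left]
    have : 0 ≤ (c0 : ℝ) * q * (q : ℝ) ^ d * (1 - Z) ^ 2 * (∑ i, a' i ^ 2 - q * Z) := by
      have : (0 : ℝ) ≤ c0 := by exact_mod_cast hc0
      have := sub_nonneg.2 hcon
      positivity
    push_cast
    convert this using 1
    ring)
  rw [h2, mkH, bil_madd, bil_foldr, bil_rep, bil_outer, dz_sZ _ _ (show 1 ≤ V.J by omega),
    hf a' ha'] at key
  have e2 : ((cs.zip V.tab).map fun p => bil (outer (-(p.1 * p.2.r q V.s.D)) (ei p.2.n) p.2.L)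
      (bas (sZ V.J).m (sZ V.J).E ⟨1, Z, 0, 0⟩) (V.F a')).sum =
      -((cs.zip V.tab).map fun p => (p.1 : ℝ) * (p.2.r q V.s.D : ℝ) ^ 2 *
        msym (V.lamf p.2) (fun i => Z * a' i)).sum := by
    rw [List.sum_neg, List.map_map]
    congr 1
    refine List.map_congr_left fun p hp => ?_
    obtain ⟨h1, h2, h3⟩ := V.hL _ (hmem p hp)
    simp only [Function.comp, bil_outer, dz_sZ _ _ h1, msym_smul, h2, ← h3 a' ha']
    push_cast; ring
  rw [e2] at key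
  nlinarith

/-! the table of symmetrised monomials -/

theorem Rp.dot' {α : Type} {k : W4 ℕ} {w : W4 ℝ} {D : ℕ} (l : List α) (f g : α → ℕ) (u : α → ℝ)
    (h : ∀ a ∈ l, Rp k w D (f a) (g a) (u a)) (c : List ℕ) :
    Rp k w D (dot c (l.map f)) (dot c (l.map g)) (dot (c.map ((↑) : ℕ → ℝ)) (l.map u)) := by
  induction c generalizing l with
  | nil => simpa [dot] using Rp.zero D
  | cons a c ih => cases l with
    | nil => simpa [dot] using Rp.zero D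
    | cons b l => exact ((h b (by simp)).smul a).add (ih l fun x hx => h x (by simp [hx]))

def idL (pm : List (W4 ℕ)) (s : Side) (τ : Tm) (x : W4 ℕ) : ℕ :=
  τ.den * ((bas false pm x).sum * mono (gens true x) ⟨s.D - τ.n, 0, 0, 0⟩) +
    dot (τ.L.map fun z => (-z).toNat) (bas s.m s.E x)
def idR (s : Side) (τ : Tm) (x : W4 ℕ) : ℕ := dot (τ.L.map Int.toNat) (bas s.m s.E x)

def idOK (pm : W4 ℕ → List (W4 ℕ)) (s : Side) (S : Q) (b : ℕ) (τ : Tm) : Bool :=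
  s.ok && Nat.ble τ.n s.D && (pm τ.lam).all (fun e => deg false e == τ.n) &&
  Nat.blt (idL (pm τ.lam) s τ (pt S w1)) (2 ^ b) && Nat.blt (idR s τ (pt S w1)) (2 ^ b) &&
  Nat.beq (idL (pm τ.lam) s τ (pt S (kap s.D b))) (idR s τ (pt S (kap s.D b)))

theorem idOK_sound {pm s S b τ} (h : idOK pm s S b τ = true) (w : W4 ℝ) : τ.n ≤ s.D ∧
    τ.den * ((bas false (pm τ.lam) (pt S w)).sum * (gens true (pt S w)).a ^ (s.D - τ.n)) =
      dz τ.L (bas s.m s.E (pt S w)) := by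
  simp only [idOK, Bool.and_eq_true, Nat.ble_eq, List.all_eq_true, beq_iff_eq, Nat.blt_eq,
    Nat.beq_eq] at h
  obtain ⟨⟨⟨⟨⟨h1, h2⟩, h3⟩, h4⟩, h5⟩, h6⟩ := h
  refine ⟨h2, ?_⟩
  have r1 := Rp.sum (k := kap s.D b) (w := w) (pm τ.lam) _ _ _
    fun e he => (Rp.mono_gens S false e).cast (h3 e he)
  have r2 := (((r1.mul (Rp.mono_gens S true ⟨s.D - τ.n, 0, 0, 0⟩)).smul τ.den).cast
    (show _ = s.D by simp [deg]; omega)).add
    (Rp.dot' s.E _ _ _ (s.rp S b h1 w) (τ.L.map fun z => (-z).toNat))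
  have r3 := Rp.dot' s.E _ _ _ (s.rp S b h1 w) (τ.L.map Int.toNat)
  have e2 := r2.eq_dec h4
  have e3 := r3.eq_dec h5
  have e4 : dec s.D b w (idL (pm τ.lam) s τ (pt S (kap s.D b))) =
    dec s.D b w (idR s τ (pt S (kap s.D b))) := by rw [h6]
  have e5 := e2.trans (e4.trans e3.symm)
  rw [dz_split, eq_sub_iff_add_eq]
  simpa [mono, bas] using e5

theorem cont_dz {X : Type} [TopologicalSpace X] {α : Type} (E : List α) (g : X → α → ℝ)
    (h : ∀ e, Continuous fun a => g a e) (v : List ℤ) : Continuous fun a => dz v (E.map (g a)) := by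
  induction v generalizing E with
  | nil => simpa [dz, dot] using continuous_const
  | cons c v ih => cases E with
    | nil => simpa [dz, dot] using continuous_const
    | cons e E => exact (continuous_const.mul (h e)).add (ih E)

end Vale.Agent.P154
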