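import Mathlib

namespace Vale.Agent.P154

open MvPolynomial

structure W4 (R : Type) where
  a : R
  b : R
  c : R
  d : R

abbrev Q := W4 (W4 ℕ)

section generic
variable {R : Type} [Add R] [Mul R] [Pow R ℕ] [NatCast R] [Zero R]

def pt (S : Q) (w : W4 R) : W4 R :=
  ⟨S.a.a * w.a + S.b.a * w.b + S.c.a * w.c + S.d.a * w.d,
   S.a.b * w.a + S.b.b * w.b + S.c.b * w.c + S.d.b * w.d,
   S.a.c * w.a + S.b.c * w.b + S.c.c * w.c + S.d.c * w.d,
   S.a.d * w.a + S.b.d * w.b + S.c.d * w.c + S.d.d * w.d⟩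

def gens (m : Bool) (x : W4 R) : W4 R :=
  cond m ⟨x.a + x.b + x.c + x.d, x.a ^ 2 + x.b ^ 2 + x.c ^ 2 + x.d ^ 2,
    x.a ^ 3 + x.b ^ 3 + x.c ^ 3 + x.d ^ 3, x.a ^ 4 + x.b ^ 4 + x.c ^ 4 + x.d ^ 4⟩ x

def mono (g : W4 R) (e : W4 ℕ) : R := g.a ^ e.a * g.b ^ e.b * g.c ^ e.c * g.d ^ e.d

def bas (m : Bool) (E : List (W4 ℕ)) (x : W4 R) : List R := E.map (mono (gens m x))

def dot : List R → List R → R
  | a :: l, b :: m => a * b + dot l m
  | _, _ => 0
end generic

def deg (m : Bool) (e : W4 ℕ) : ℕ :=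
  cond m (e.a + 2 * e.b + 3 * e.c + 4 * e.d) (e.a + e.b + e.c + e.d)

def kap (D b : ℕ) : W4 ℕ := ⟨1, 2 ^ b, 2 ^ (b * (D + 1)), 2 ^ (b * (D + 1) * (D + 1))⟩
def w1 : W4 ℕ := ⟨1, 1, 1, 1⟩

def W4.f {R : Type} (w : W4 R) : Fin 4 → R := ![w.a, w.b, w.c, w.d]

/-- `N`, `s`, `x` are the values of one homogeneous polynomial with natural coefficients -/
def Rp (k : W4 ℕ) (w : W4 ℝ) (D N s : ℕ) (x : ℝ) : Prop :=
  ∃ P : MvPolynomial (Fin 4) ℕ, P.IsHomogeneous D ∧ eval k.f P = N ∧ eval w1.f P = s ∧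
    eval₂ (Nat.castRingHom ℝ) w.f P = x

namespace Rp
variable {k : W4 ℕ} {w : W4 ℝ}

theorem add {D N s N' s' x x'} (h : Rp k w D N s x) (h' : Rp k w D N' s' x') :
    Rp k w D (N + N') (s + s') (x + x') := by
  obtain ⟨P, h1, rfl, rfl, rfl⟩ := h
  obtain ⟨P', h2, rfl, rfl, rfl⟩ := h'
  exact ⟨P + P', h1.add h2, by simp, by simp, by simp [eval₂_add]⟩

theorem mul {D D' N s N' s' x x'} (h : Rp k w D N s x) (h' : Rp k w D' N' s' x') :
    Rp k w (D + D') (N * N') (s * s') (x * x') := by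
  obtain ⟨P, h1, rfl, rfl, rfl⟩ := h
  obtain ⟨P', h2, rfl, rfl, rfl⟩ := h'
  exact ⟨P * P', h1.mul h2, by simp, by simp, by simp [eval₂_mul]⟩

theorem pow {D N s x} (h : Rp k w D N s x) (n : ℕ) :
    Rp k w (D * n) (N ^ n) (s ^ n) (x ^ n) := by
  obtain ⟨P, h1, rfl, rfl, rfl⟩ := h
  exact ⟨P ^ n, h1.pow n, by simp, by simp, by simp [eval₂_pow]⟩

theorem smul {D N s x} (h : Rp k w D N s x) (n : ℕ) :
    Rp k w D (n * N) (n * s) (n * x) := by
  obtain ⟨P, h1, rfl, rfl, rfl⟩ := h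
  refine ⟨C n * P, ?_, by simp, by simp, by simp [eval₂_mul]⟩
  simpa using (isHomogeneous_C (Fin 4) n).mul h1

theorem zero (D : ℕ) : Rp k w D 0 0 0 := ⟨0, isHomogeneous_zero _ _ _, by simp, by simp, by simp⟩

theorem var (i : Fin 4) : Rp k w 1 (k.f i) (w1.f i) (w.f i) :=
  ⟨X i, isHomogeneous_X _ _, by simp, by simp, by simp⟩

theorem cast {D D' N s x} (h : Rp k w D N s x) (e : D = D') : Rp k w D' N s x := e ▸ h

theorem lin (p q r t : ℕ) : Rp k w 1 ((p : ℕ) * k.a + (q : ℕ) * k.b + (r : ℕ) * k.c + (t : ℕ) * k.d)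
    (p * w1.a + q * w1.b + r * w1.c + t * w1.d) (p * w.a + q * w.b + r * w.c + t * w.d) :=
  ((((var 0).smul p).add ((var 1).smul q)).add ((var 2).smul r)).add ((var 3).smul t)

theorem mono_gens (S : Q) (m : Bool) (e : W4 ℕ) :
    Rp k w (deg m e) (mono (gens m (pt S k)) e) (mono (gens m (pt S w1)) e)
      (mono (gens m (pt S w)) e) := by
  have ha := lin (k := k) (w := w) S.a.a S.b.a S.c.a S.d.a
  have hb := lin (k := k) (w := w) S.a.b S.b.b S.c.b S.d.b
  have hc := lin (k := k) (w := w) S.a.c S.b.c S.c.c S.d.c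
  have hd := lin (k := k) (w := w) S.a.d S.b.d S.c.d S.d.d
  cases m
  · exact ((((ha.pow e.a).mul (hb.pow e.b)).mul (hc.pow e.c)).mul (hd.pow e.d)).cast
      (by simp [deg])
  · have g1 := ((ha.add hb).add hc).add hd
    have g2 := (((ha.pow 2).add (hb.pow 2)).add (hc.pow 2)).add (hd.pow 2)
    have g3 := (((ha.pow 3).add (hb.pow 3)).add (hc.pow 3)).add (hd.pow 3)
    have g4 := (((ha.pow 4).add (hb.pow 4)).add (hc.pow 4)).add (hd.pow 4)
    exact ((((g1.pow e.a).mul (g2.pow e.b)).mul (g3.pow e.c)).mul (g4.pow e.d)).cast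
      (by simp [deg])
end Rp

/-! digits -/

theorem digit_sum {ι : Type} (s : Finset ι) (c pos : ι → ℕ) (X p : ℕ) (hX : ∑ e ∈ s, c e < X) :
    (∑ e ∈ s, c e * X ^ pos e) / X ^ p % X = ∑ e ∈ s, if pos e = p then c e else 0 := by
  classical
  have hX0 : 0 < X := by omega
  have key : ∑ e ∈ s, c e * X ^ pos e =
      (∑ e ∈ s, if pos e < p then c e * X ^ pos e else 0) + X ^ p *
        ((∑ e ∈ s, if pos e = p then c e else 0) +
          X * ∑ e ∈ s, if p < pos e then c e * X ^ (pos e - p - 1) else 0) := by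
    rw [mul_add, Finset.mul_sum, Finset.mul_sum, Finset.mul_sum, ← Finset.sum_add_distrib,
      ← Finset.sum_add_distrib]
    refine Finset.sum_congr rfl fun e _ => ?_
    rcases lt_trichotomy (pos e) p with h | h | h
    · simp [h, h.ne, not_lt.2 h.le]
    · simp [h, mul_comm]
    · obtain ⟨r, hr⟩ := Nat.exists_eq_add_of_lt h
      have : pos e - p - 1 = r := by omega
      simp only [not_lt.2 h.le, h.ne', h, if_true, if_false, this]
      rw [hr]; ring
  have hlow : (∑ e ∈ s, if pos e < p then c e * X ^ pos e else 0) < X ^ p := by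
    rcases p with _ | p
    · simp
    · calc _ ≤ ∑ e ∈ s, c e * X ^ p := by
            refine Finset.sum_le_sum fun e _ => ?_
            split_ifs with h
            · exact Nat.mul_le_mul_left _ (Nat.pow_le_pow_right hX0 (by omega))
            · omega
        _ = (∑ e ∈ s, c e) * X ^ p := by rw [Finset.sum_mul]
        _ < X ^ (p + 1) := by
            rw [pow_succ, mul_comm (X ^ p)]
            exact Nat.mul_lt_mul_of_pos_right hX (by positivity)
  have hmid : (∑ e ∈ s, if pos e = p then c e else 0) < X := by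
    refine lt_of_le_of_lt (Finset.sum_le_sum fun e _ => ?_) hX
    split_ifs <;> omega
  rw [key, Nat.add_mul_div_left _ _ (by positivity), Nat.div_eq_of_lt hlow, zero_add,
    Nat.add_mul_mod_self_left, Nat.mod_eq_of_lt hmid]

def slice (s e N : ℕ) : ℕ := Nat.land (Nat.shiftRight N (s * e)) (2 ^ s - 1)

theorem slice_eq (s e N : ℕ) : slice s e N = N / 2 ^ (s * e) % 2 ^ s := by
  show (N >>> (s * e)) &&& (2 ^ s - 1) = _
  rw [Nat.and_two_pow_sub_one_eq_mod, Nat.shiftRight_eq_div_pow]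

theorem slice_aux (N u v r t : ℕ) (h : r + t ≤ v) :
    N / 2 ^ u % 2 ^ v / 2 ^ r % 2 ^ t = N / 2 ^ (u + r) % 2 ^ t := by
  obtain ⟨z, rfl⟩ := Nat.exists_eq_add_of_le h
  rw [add_assoc r, pow_add 2 r, Nat.mod_mul_right_div_self, Nat.div_div_eq_div_mul, ← pow_add,
    Nat.mod_mod_of_dvd _ (pow_dvd_pow 2 (by omega))]

def dig (D b : ℕ) (e : ℕ × ℕ × ℕ) (N : ℕ) : ℕ :=
  slice b e.1 (slice (b * (D + 1)) e.2.1 (slice (b * (D + 1) * (D + 1)) e.2.2 N))

theorem dig_eq (D b e1 e2 e3 N : ℕ) (h1 : e1 ≤ D) (h2 : e2 ≤ D) :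
    dig D b (e1, e2, e3) N = N / (2 ^ b) ^ (e1 + (D + 1) * e2 + (D + 1) * (D + 1) * e3) % 2 ^ b := by
  simp only [dig, slice_eq]
  have k1 := Nat.mul_le_mul_left (b * (D + 1)) h2
  have k2 := Nat.mul_le_mul_left b h1
  rw [slice_aux _ _ _ _ _ (by nlinarith), slice_aux _ _ _ _ _ (by nlinarith), ← pow_mul]
  congr 3; ring

theorem dig_lt (D b e N) : dig D b e N < 2 ^ b := by
  unfold dig; rw [slice_eq]; exact Nat.mod_lt _ (by positivity)

def idx (D : ℕ) : List (ℕ × ℕ × ℕ) :=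
  (List.range (D + 1)).flatMap fun e3 => (List.range (D + 1 - e3)).flatMap fun e2 =>
    (List.range (D + 1 - e3 - e2)).map fun e1 => (e1, e2, e3)

def cols (D b : ℕ) (Ns : List ℕ) : List (List ℕ) :=
  (List.range (D + 1)).flatMap fun e3 =>
    (fun S3 : List ℕ => (List.range (D + 1 - e3)).flatMap fun e2 =>
      (fun S2 : List ℕ => (List.range (D + 1 - e3 - e2)).map fun e1 => S2.map (slice b e1))
        (S3.map (slice (b * (D + 1)) e2))) (Ns.map (slice (b * (D + 1) * (D + 1)) e3))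

theorem cols_eq (D b Ns) : cols D b Ns = (idx D).map fun e => Ns.map (dig D b e) := by
  simp only [cols, idx, List.map_flatMap, List.map_map]
  rfl

noncomputable def mon (D : ℕ) (w : W4 ℝ) (e : ℕ × ℕ × ℕ) : ℝ :=
  w.a ^ (D - e.1 - e.2.1 - e.2.2) * w.b ^ e.1 * w.c ^ e.2.1 * w.d ^ e.2.2

noncomputable def dec (D b : ℕ) (w : W4 ℝ) (N : ℕ) : ℝ :=
  ((idx D).map fun e => (dig D b e N : ℝ) * mon D w e).sum

theorem sum_flatMap' {α : Type} (l : List α) (f : α → List ℝ) :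
    (l.flatMap f).sum = (l.map fun a => (f a).sum).sum := by
  induction l with
  | nil => simp
  | cons a l ih => simp [ih]

theorem sum_idx (D : ℕ) (g : ℕ × ℕ × ℕ → ℝ) : ((idx D).map g).sum =
    ∑ e3 ∈ Finset.range (D + 1), ∑ e2 ∈ Finset.range (D + 1 - e3),
      ∑ e1 ∈ Finset.range (D + 1 - e3 - e2), g (e1, e2, e3) := by
  simp only [idx, List.map_flatMap, List.map_map, sum_flatMap']
  rfl

theorem Rp.eq_dec {D b N s : ℕ} {w : W4 ℝ} {x : ℝ} (h : Rp (kap D b) w D N s x) (hs : s < 2 ^ b) :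
    x = dec D b w N := by
  classical
  obtain ⟨P, hP, rfl, rfl, rfl⟩ := h
  have hdeg : ∀ e ∈ P.support, e 0 + e 1 + e 2 + e 3 = D := by
    intro e he
    have := hP (mem_support_iff.1 he)
    rw [Finsupp.weight_apply, Finsupp.sum_fintype _ _ (by simp), Fin.sum_univ_four] at this
    simpa using this
  have hN : eval (kap D b).f P = ∑ e ∈ P.support, coeff e P *
      (2 ^ b) ^ (e 1 + (D + 1) * e 2 + (D + 1) * (D + 1) * e 3) := by
    rw [eval_eq']
    refine Finset.sum_congr rfl fun e _ => ?_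
    simp only [Fin.prod_univ_four, W4.f, kap]
    simp only [Matrix.cons_val_zero, Matrix.cons_val_one, Matrix.cons_val, ← pow_mul, one_pow,
      one_mul, ← pow_add]
    congr 2; ring
  have h1 : ∑ e ∈ P.support, coeff e P < 2 ^ b := by
    rw [eval_eq'] at hs
    simpa [Fin.prod_univ_four, W4.f, w1] using hs
  rw [dec, sum_idx, eval₂_eq', hN]
  have step : ∀ e3 ∈ Finset.range (D + 1), ∀ e2 ∈ Finset.range (D + 1 - e3),
      ∀ e1 ∈ Finset.range (D + 1 - e3 - e2),
      (dig D b (e1, e2, e3) (∑ e ∈ P.support, coeff e P *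
        (2 ^ b) ^ (e 1 + (D + 1) * e 2 + (D + 1) * (D + 1) * e 3)) : ℝ) * mon D w (e1, e2, e3) =
      ∑ e ∈ P.support, if e 1 = e1 ∧ e 2 = e2 ∧ e 3 = e3 then
        ((coeff e P : ℕ) : ℝ) * mon D w (e 1, e 2, e 3) else 0 := by
    intro e3 h3 e2 h2 e1 h1'
    simp only [Finset.mem_range] at h3 h2 h1'
    rw [dig_eq _ _ _ _ _ _ (by omega) (by omega), digit_sum _ _ _ _ _ h1]
    push_cast
    rw [Finset.sum_mul]
    refine Finset.sum_congr rfl fun e he => ?_
    have hd := hdeg e he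
    have hiff : (e 1 + (D + 1) * e 2 + (D + 1) * (D + 1) * e 3 =
        e1 + (D + 1) * e2 + (D + 1) * (D + 1) * e3) ↔ (e 1 = e1 ∧ e 2 = e2 ∧ e 3 = e3) := by
      constructor
      · intro h
        have a1 : e 1 + (D + 1) * (e 2 + (D + 1) * e 3) = e1 + (D + 1) * (e2 + (D + 1) * e3) := by
          linarith
        have b1 : e 1 = e1 := by
          have := congrArg (· % (D + 1)) a1
          simp only [Nat.add_mul_mod_self_left] at this
          rwa [Nat.mod_eq_of_lt (by omega), Nat.mod_eq_of_lt (by omega)] at this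
        have a2 : e 2 + (D + 1) * e 3 = e2 + (D + 1) * e3 := by
          rw [b1] at a1
          exact Nat.eq_of_mul_eq_mul_left (Nat.succ_pos D) (Nat.add_left_cancel a1)
        have b2 : e 2 = e2 := by
          have := congrArg (· % (D + 1)) a2
          simp only [Nat.add_mul_mod_self_left] at this
          rwa [Nat.mod_eq_of_lt (by omega), Nat.mod_eq_of_lt (by omega)] at this
        rw [b2] at a2
        exact ⟨b1, b2, Nat.eq_of_mul_eq_mul_left (Nat.succ_pos D) (Nat.add_left_cancel a2)⟩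
      · rintro ⟨rfl, rfl, rfl⟩; rfl
    by_cases hc : e 1 = e1 ∧ e 2 = e2 ∧ e 3 = e3
    · rw [if_pos (hiff.2 hc), if_pos hc, hc.1, hc.2.1, hc.2.2]
    · rw [if_neg (fun h => hc (hiff.1 h)), if_neg hc, zero_mul]
  rw [Finset.sum_congr rfl fun e3 h3 => Finset.sum_congr rfl fun e2 h2 =>
    Finset.sum_congr rfl fun e1 h1' => step e3 h3 e2 h2 e1 h1']
  simp_rw [Finset.sum_comm (t := P.support)]
  refine Finset.sum_congr rfl fun e he => ?_
  have hd := hdeg e he
  rw [Finset.sum_eq_single (e 3), Finset.sum_eq_single (e 2), Finset.sum_eq_single (e 1)]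
  · have : D - e 1 - e 2 - e 3 = e 0 := by omega
    simp [mon, this, Fin.prod_univ_four, W4.f]
  · intro i _ hi; simp [hi.symm]
  · intro h; exfalso; apply h; simp; omega
  · intro i _ hi; simp [hi.symm]
  · intro h; exfalso; apply h; simp; omega
  · intro i _ hi; simp [hi.symm]
  · intro h; exfalso; apply h; simp; omega

theorem Rp.dig_le {D b N s : ℕ} {w : W4 ℝ} {x : ℝ} (h : Rp (kap D b) w D N s x) (hs : s < 2 ^ b)
    (p : ℕ) : N / (2 ^ b) ^ p % 2 ^ b ≤ s := by
  classical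
  obtain ⟨P, hP, rfl, rfl, rfl⟩ := h
  have hN : eval (kap D b).f P = ∑ e ∈ P.support, coeff e P *
      (2 ^ b) ^ (e 1 + (D + 1) * e 2 + (D + 1) * (D + 1) * e 3) := by
    rw [eval_eq']
    refine Finset.sum_congr rfl fun e _ => ?_
    simp only [Fin.prod_univ_four, W4.f, kap]
    simp only [Matrix.cons_val_zero, Matrix.cons_val_one, Matrix.cons_val, ← pow_mul, one_pow,
      one_mul, ← pow_add]
    congr 2; ring
  have h1 : eval w1.f P = ∑ e ∈ P.support, coeff e P := by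
    rw [eval_eq']
    simp [Fin.prod_univ_four, W4.f, w1]
  rw [h1] at hs ⊢
  rw [hN, digit_sum _ _ _ _ _ hs]
  refine Finset.sum_le_sum fun e _ => ?_
  split_ifs <;> omega

theorem Rp.sum {α : Type} {k : W4 ℕ} {w : W4 ℝ} {D : ℕ} (l : List α) (f g : α → ℕ) (u : α → ℝ)
    (h : ∀ a ∈ l, Rp k w D (f a) (g a) (u a)) :
    Rp k w D (l.map f).sum (l.map g).sum (l.map u).sum := by
  induction l with
  | nil => simpa using Rp.zero D
  | cons a l ih =>
    simpa using (h a (by simp)).add (ih fun x hx => h x (by simp [hx]))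

end Vale.Agent.P154
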