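import Vale.Agent.P154.D3

set_option linter.defProp false

namespace Vale.Agent.P154

def tab3_ok0_0 : (((tab3).drop 0).take 6).all (fun τ => idOK pm3 s3 I3 64 τ && (τ.lam.d == 0)) = true := by decide +kernel
def tab3_ok0_1 : (((tab3).drop 6).take 6).all (fun τ => idOK pm3 s3 I3 64 τ && (τ.lam.d == 0)) = true := by decide +kernel
def tab3_ok0_2 : (((tab3).drop 12).take 6).all (fun τ => idOK pm3 s3 I3 64 τ && (τ.lam.d == 0)) = true := by decide +kernel
def tab3_ok0_3 : ((tab3).drop 18).all (fun τ => idOK pm3 s3 I3 64 τ && (τ.lam.d == 0)) = true := by decide +kernel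
theorem tab3_ok0 : ((tab3).drop 0).all (fun τ => idOK pm3 s3 I3 64 τ && (τ.lam.d == 0)) = true :=
  chunk _ _ 0 6 tab3_ok0_0
    (chunk _ _ 6 6 tab3_ok0_1
    (chunk _ _ 12 6 tab3_ok0_2
    (tab3_ok0_3)))
theorem tab3_ok : tab3.all (fun τ => idOK pm3 s3 I3 64 τ && (τ.lam.d == 0)) = true := tab3_ok0
def G3a_eq : mkG1 (cs3a.zip tab3) mu3a psv3 Av3 A2v3 (ei 0) kk3a = G3a := by decide +kernel
def G3b_eq : mkG2 (cs3b.zip tab3) mu3b psv3 = G3b := by decide +kernel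
def H3a_eq : mkH 3 6 8 Sp3a (Av3.map fun b => -1 * b) (cs3a.zip tab3) = H3a := by decide +kernel
def H3b_eq : mkH 3 6 8 Sp3b psv3 (cs3b.zip tab3) = H3b := by decide +kernel
def S3a_ok : ((leaves tS3a rT R3 []).drop 0).all (leafOK sT s3 [mu3a] []) = true := by decide +kernel
def S3b_ok : ((leaves tS3b rT R3 []).drop 0).all (leafOK sT s3 [vadd (· + ·) mu3b (psv3.map fun b => -kk3b * b)] []) = true := by decide +kernel
def G3a_ok_0 : ((leaves tG3a R3 R3 []).drop 0).all (leafOK s3 s3 G3a []) = true := by decide +kernel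
def H3a_ok_0 : ((leaves tH3a (rZ 3) R3 []).drop 0).all (leafOK (sZ 8) s3 H3a (mkCon 3 cc3a 0 1)) = true := by decide +kernel
def G3b_ok_0 : ((leaves tG3b R3 R3 []).drop 0).all (leafOK s3 s3 G3b []) = true := by decide +kernel
def H3b_ok_0 : (((leaves tH3b (rZ 3) R3 []).drop 0).take 20).all (leafOK (sZ 8) s3 H3b (mkCon 3 cc3b 0 1)) = true := by decide +kernel
def H3b_ok_1 : ((leaves tH3b (rZ 3) R3 []).drop 20).all (leafOK (sZ 8) s3 H3b (mkCon 3 cc3b 0 1)) = true := by decide +kernel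
theorem G3a_ok : ((leaves tG3a R3 R3 []).drop 0).all (leafOK s3 s3 G3a []) = true :=
  G3a_ok_0
theorem H3a_ok : ((leaves tH3a (rZ 3) R3 []).drop 0).all (leafOK (sZ 8) s3 H3a (mkCon 3 cc3a 0 1)) = true :=
  H3a_ok_0
theorem G3b_ok : ((leaves tG3b R3 R3 []).drop 0).all (leafOK s3 s3 G3b []) = true :=
  G3b_ok_0
theorem H3b_ok : ((leaves tH3b (rZ 3) R3 []).drop 0).all (leafOK (sZ 8) s3 H3b (mkCon 3 cc3b 0 1)) = true :=
  chunk _ _ 0 20 H3b_ok_0
    (H3b_ok_1)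

end Vale.Agent.P154
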