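import Vale.Agent.P154.Avg

namespace Vale.Agent.P154

variable {q : ℕ}

def mkG2 (ts : List (ℤ × Tm)) (av psv : List ℤ) : Mat :=
  madd (mkG0 ts) (madd (outer (-1) av psv) (outer (-1) psv av))

def mkG1 (ts : List (ℤ × Tm)) (gv psv Av A2v one : List ℤ) (K : ℤ) : Mat :=
  madd (mkG2 ts gv psv) (madd (madd (outer (300 * K) Av one) (outer (300 * K) one Av))
    (madd (outer (-K) A2v Av) (outer (-K) Av A2v)))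

theorem mkCert (V : Env q) (hq17 : q ≤ 17) (ψ : (Fin q → ℝ) → ℝ) (cψ : Continuous ψ)
    (cF : ∀ v, Continuous fun a => dz v (V.F a)) (psv Av A2v : List ℤ)
    (hps : ∀ a ∈ Sx q, dz psv (V.F a) = (q : ℝ) ^ V.s.D * ψ a)
    (hA : ∀ a ∈ Sx q, dz Av (V.F a) = (q : ℝ) ^ V.s.D * chi a)
    (hA2 : ∀ a ∈ Sx q, dz A2v (V.F a) = (q : ℝ) ^ V.s.D * chi a ^ 2)
    (cs1 gv : List ℤ) (Sp1 K : ℤ) (hS1 : 0 < Sp1)
    (hK : 300 * K * (q : ℤ) ^ V.s.D = Sp1 * q.factorial)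
    (hl1 : ∀ a ∈ Sx q, ∀ b ∈ Sx q, bil (mkG0 (cs1.zip V.tab)) (V.F a) (V.F b) ≤
      Sp1 * (q : ℝ) ^ V.s.D * ∑ σ : Equiv.Perm (Fin q),
        hom (fun a => -chi a) (fun i => a i * b (σ i)))
    (hG1 : ∀ a ∈ Sx q, ∀ b ∈ Sx q,
      0 ≤ bil (mkG1 (cs1.zip V.tab) gv psv Av A2v (ei V.i0) K) (V.F a) (V.F b))
    (hγ : ∀ a ∈ Sx q, 0 ≤ dz gv (V.F a))
    (cs2 av : List ℤ) (Sp2 tp : ℤ) (hS2 : 0 < Sp2) (htp : 0 ≤ tp)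
    (hl2 : ∀ a ∈ Sx q, ∀ b ∈ Sx q, bil (mkG0 (cs2.zip V.tab)) (V.F a) (V.F b) ≤
      Sp2 * (q : ℝ) ^ V.s.D * ∑ σ : Equiv.Perm (Fin q), hom ψ (fun i => a i * b (σ i)))
    (hG2 : ∀ a ∈ Sx q, ∀ b ∈ Sx q, 0 ≤ bil (mkG2 (cs2.zip V.tab) av psv) (V.F a) (V.F b))
    (hα : ∀ a ∈ Sx q, 0 ≤ dz (vadd (· + ·) av (psv.map fun b => -tp * b)) (V.F a))
    (hch : ∀ lam : ℝ, 0 ≤ lam → lam ≤ 1 → ∀ a ∈ Sx q,
      lam ^ 3 * ψ a ≤ ψ (fun i => lam * a i + (1 - lam)))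
    (hv : ∀ j : Fin q, 0 ≤ ψ (fun i => if i = j then (q : ℝ) else 0))
    (hc : 0 ≤ ψ (fun _ => 1)) : Nonempty (Cert q) := by
  have hq' : (0 : ℝ) < q := by exact_mod_cast V.hq
  have hκ : (0 : ℝ) < (q : ℝ) ^ V.s.D := by positivity
  have hf : (0 : ℝ) < q.factorial := by exact_mod_cast q.factorial_pos
  have hS1' : (0 : ℝ) < Sp1 := by exact_mod_cast hS1
  have hS2' : (0 : ℝ) < Sp2 := by exact_mod_cast hS2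
  have htp' : (0 : ℝ) ≤ tp := by exact_mod_cast htp
  have hK' : 300 * (K : ℝ) * (q : ℝ) ^ V.s.D = Sp1 * q.factorial := by exact_mod_cast hK
  refine ⟨{
    ψ := ψ
    α := fun a => dz av (V.F a) / (Sp2 * q.factorial)
    γ := fun a => dz gv (V.F a) / (Sp1 * q.factorial)
    cψ := cψ
    cα := (cF av).div_const _
    cγ := (cF gv).div_const _
    t := tp * (q : ℝ) ^ V.s.D / (Sp2 * q.factorial)
    δ := 1 / 300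
    ht := by positivity
    hδ := by norm_num
    hδ' := ?_
    I1 := ?_
    I2 := ?_
    hγ := fun a ha => div_nonneg (hγ a ha) (by positivity)
    hα := ?_
    hch := hch
    hv := hv
    hc := hc }⟩
  · have : (q : ℝ) ≤ 17 := by exact_mod_cast hq17
    nlinarith
  · intro a ha b hb
    have h1 := hl1 a ha b hb
    have h2 := hG1 a ha b hb
    have h3 : ∑ σ : Equiv.Perm (Fin q), hom (fun a => -chi a) (fun i => a i * b (σ i)) =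
        -∑ σ : Equiv.Perm (Fin q), hom chi (fun i => a i * b (σ i)) := by
      simp [hom]
    rw [h3] at h1
    simp only [mkG1, mkG2, bil_madd, bil_outer, hps a ha, hps b hb, hA a ha, hA b hb, hA2 a ha,
      hA2 b hb, V.h0 a ha, V.h0 b hb] at h2
    push_cast at h2
    set X := ∑ σ : Equiv.Perm (Fin q), hom chi (fun i => a i * b (σ i))
    set κ := (q : ℝ) ^ V.s.D
    have h4 : κ * (Sp1 * X) ≤ κ * (300 * K * κ * (chi a + chi b) - dz gv (V.F b) * ψ a -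
        dz gv (V.F a) * ψ b - 300 * K * κ / 300 * (chi a ^ 2 * chi b + chi a * chi b ^ 2)) := by
      nlinarith
    have h5 := le_of_mul_le_mul_left h4 hκ
    rw [hK'] at h5
    refine le_of_mul_le_mul_left (h5.trans (le_of_eq ?_)) hS1'
    field_simp
    ring
  · intro a ha b hb
    have h1 := hl2 a ha b hb
    have h2 := hG2 a ha b hb
    simp only [mkG2, bil_madd, bil_outer, hps a ha, hps b hb] at h2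
    push_cast at h2
    set X := ∑ σ : Equiv.Perm (Fin q), hom ψ (fun i => a i * b (σ i))
    set κ := (q : ℝ) ^ V.s.D
    have h4 : κ * (dz av (V.F b) * ψ a + dz av (V.F a) * ψ b) ≤ κ * (Sp2 * X) := by nlinarith
    have h5 := le_of_mul_le_mul_left h4 hκ
    refine le_of_mul_le_mul_left (le_trans (le_of_eq ?_) h5) hS2'
    field_simp
  · intro a ha
    have h1 := hα a ha
    rw [dz_vadd, dz_map, hps a ha] at h1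
    push_cast at h1
    rw [div_mul_eq_mul_div]
    refine div_le_div_of_nonneg_right ?_ (by positivity)
    nlinarith

/-! centred moments -/

noncomputable def cm (k : ℕ) (a : Fin q → ℝ) : ℝ := (∑ i, (a i - 1) ^ k) / q

theorem cm_chan (k : ℕ) (lam : ℝ) (a : Fin q → ℝ) :
    cm k (fun i => lam * a i + (1 - lam)) = lam ^ k * cm k a := by
  unfold cm
  rw [← mul_div_assoc, Finset.mul_sum]
  congr 1
  refine Finset.sum_congr rfl fun i _ => ?_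
  rw [← mul_pow]; congr 1; ring

theorem cm_cont (k : ℕ) : Continuous (cm (q := q) k) := by
  unfold cm; fun_prop

theorem sort_ex (a : Fin q → ℝ) : ∃ σ : Equiv.Perm (Fin q), Monotone (a ∘ σ) :=
  ⟨Tuple.sort a, Tuple.monotone_sort a⟩

/-! three letters -/

def emb3 (a : Fin 3 → ℝ) : W4 ℝ := ⟨a 0, a 1, a 2, 0⟩
def R3 : Q := ⟨⟨1, 1, 1, 0⟩, ⟨1, 0, 0, 0⟩, ⟨1, 1, 0, 0⟩, ⟨0, 0, 0, 0⟩⟩
def I3 : Q := ⟨⟨1, 0, 0, 0⟩, ⟨0, 1, 0, 0⟩, ⟨0, 0, 1, 0⟩, ⟨0, 0, 0, 0⟩⟩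
def pm3 (l : W4 ℕ) : List (W4 ℕ) :=
  [⟨l.a, l.b, l.c, 0⟩, ⟨l.a, l.c, l.b, 0⟩, ⟨l.b, l.a, l.c, 0⟩, ⟨l.b, l.c, l.a, 0⟩,
    ⟨l.c, l.a, l.b, 0⟩, ⟨l.c, l.b, l.a, 0⟩]
def lam3 (τ : Tm) : Fin 3 → ℕ := ![τ.lam.a, τ.lam.b, τ.lam.c]

theorem gens3 (a : Fin 3 → ℝ) : gens true (emb3 a) =
    ⟨∑ i, a i, ∑ i, a i ^ 2, ∑ i, a i ^ 3, ∑ i, a i ^ 4⟩ := by
  simp [gens, emb3, Fin.sum_univ_three]

theorem sort3 (E : List (W4 ℕ)) (a : Fin 3 → ℝ) (ha : a ∈ Sx 3) :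
    ∃ x, cone R3 x ∧ bas true E x = bas true E (emb3 a) := by
  obtain ⟨σ, hσ⟩ := sort_ex a
  have h01 : a (σ 0) ≤ a (σ 1) := hσ (by decide : (0 : Fin 3) ≤ 1)
  have h12 : a (σ 1) ≤ a (σ 2) := hσ (by decide : (1 : Fin 3) ≤ 2)
  refine ⟨⟨a (σ 2), a (σ 1), a (σ 0), 0⟩, ⟨⟨a (σ 0), a (σ 2) - a (σ 1), a (σ 1) - a (σ 0), 0⟩,
    ⟨ha.1 _, by linarith, by linarith, le_rfl⟩, by simp [pt, R3]; ring⟩, ?_⟩
  unfold bas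
  congr 2
  rw [gens3, ← Equiv.sum_comp σ a, ← Equiv.sum_comp σ fun i => a i ^ 2,
    ← Equiv.sum_comp σ fun i => a i ^ 3, ← Equiv.sum_comp σ fun i => a i ^ 4]
  simp only [gens, cond_true, Fin.sum_univ_three, W4.mk.injEq]
  refine ⟨?_, ?_, ?_, ?_⟩ <;> ring

theorem perm3 (g : Fin 3 → Fin 3 → Fin 3 → ℝ) : ∑ π : Equiv.Perm (Fin 3), g (π 0) (π 1) (π 2) =
    g 0 1 2 + g 0 2 1 + g 1 0 2 + g 1 2 0 + g 2 0 1 + g 2 1 0 := by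
  have h : (Finset.univ : Finset (Equiv.Perm (Fin 3))).val.map (fun π => (π 0, π 1, π 2)) =
      ([(0, 1, 2), (0, 2, 1), (1, 0, 2), (1, 2, 0), (2, 0, 1), (2, 1, 0)] : List (Fin 3 × Fin 3 × Fin 3)) := by
    decide +kernel
  have := congrArg (fun m => (Multiset.map (fun p : Fin 3 × Fin 3 × Fin 3 => g p.1 p.2.1 p.2.2) m).sum) h
  simp only [Multiset.map_map, Function.comp] at this
  rw [Finset.sum, this]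
  simp [add_assoc]

theorem msym3 (τ : Tm) (a : Fin 3 → ℝ) : msym (lam3 τ) a = (bas false (pm3 τ.lam) (emb3 a)).sum := by
  simp only [msym, Fin.prod_univ_three]
  rw [perm3 fun i j k => a i ^ lam3 τ 0 * a j ^ lam3 τ 1 * a k ^ lam3 τ 2]
  simp [bas, pm3, mono, gens, emb3, lam3]
  ring

theorem tab3_sound {E : List (W4 ℕ)} {D b : ℕ} {τ : Tm} (h : idOK pm3 ⟨true, D, E⟩ I3 b τ = true)
    (hd : τ.lam.d = 0) : τ.n ≤ D ∧ ∑ i, lam3 τ i = τ.n ∧ ∀ a ∈ Sx 3,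
      (τ.r 3 D : ℝ) * msym (lam3 τ) a = dz τ.L (bas true E (emb3 a)) := by
  refine ⟨(idOK_sound h ⟨0, 0, 0, 0⟩).1, by simp [lam3, Fin.sum_univ_three, Tm.n, deg, hd], ?_⟩
  intro a ha
  have := (idOK_sound h ⟨a 0, a 1, a 2, 0⟩).2
  have e : pt I3 (⟨a 0, a 1, a 2, 0⟩ : W4 ℝ) = emb3 a := by simp [pt, I3, emb3]
  rw [e, gens3, ha.2] at this
  rw [← this, msym3, Tm.r]; push_cast; ring

/-! four letters -/

def emb4 (a : Fin 4 → ℝ) : W4 ℝ := ⟨a 0, a 1, a 2, a 3⟩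
def R4 : Q := ⟨⟨1, 1, 1, 1⟩, ⟨1, 0, 0, 0⟩, ⟨1, 1, 0, 0⟩, ⟨1, 1, 1, 0⟩⟩
def I4 : Q := ⟨⟨1, 0, 0, 0⟩, ⟨0, 1, 0, 0⟩, ⟨0, 0, 1, 0⟩, ⟨0, 0, 0, 1⟩⟩
def pm4 (l : W4 ℕ) : List (W4 ℕ) :=
  [⟨l.a, l.b, l.c, l.d⟩, ⟨l.a, l.b, l.d, l.c⟩, ⟨l.a, l.c, l.b, l.d⟩, ⟨l.a, l.c, l.d, l.b⟩,
    ⟨l.a, l.d, l.b, l.c⟩, ⟨l.a, l.d, l.c, l.b⟩, ⟨l.b, l.a, l.c, l.d⟩, ⟨l.b, l.a, l.d, l.c⟩,
    ⟨l.b, l.c, l.a, l.d⟩, ⟨l.b, l.c, l.d, l.a⟩, ⟨l.b, l.d, l.a, l.c⟩, ⟨l.b, l.d, l.c, l.a⟩,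
    ⟨l.c, l.a, l.b, l.d⟩, ⟨l.c, l.a, l.d, l.b⟩, ⟨l.c, l.b, l.a, l.d⟩, ⟨l.c, l.b, l.d, l.a⟩,
    ⟨l.c, l.d, l.a, l.b⟩, ⟨l.c, l.d, l.b, l.a⟩, ⟨l.d, l.a, l.b, l.c⟩, ⟨l.d, l.a, l.c, l.b⟩,
    ⟨l.d, l.b, l.a, l.c⟩, ⟨l.d, l.b, l.c, l.a⟩, ⟨l.d, l.c, l.a, l.b⟩, ⟨l.d, l.c, l.b, l.a⟩]
def lam4 (τ : Tm) : Fin 4 → ℕ := ![τ.lam.a, τ.lam.b, τ.lam.c, τ.lam.d]

theorem gens4 (a : Fin 4 → ℝ) : gens true (emb4 a) =
    ⟨∑ i, a i, ∑ i, a i ^ 2, ∑ i, a i ^ 3, ∑ i, a i ^ 4⟩ := by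
  simp [gens, emb4, Fin.sum_univ_four]

theorem sort4 (E : List (W4 ℕ)) (a : Fin 4 → ℝ) (ha : a ∈ Sx 4) :
    ∃ x, cone R4 x ∧ bas true E x = bas true E (emb4 a) := by
  obtain ⟨σ, hσ⟩ := sort_ex a
  have h01 : a (σ 0) ≤ a (σ 1) := hσ (by decide : (0 : Fin 4) ≤ 1)
  have h12 : a (σ 1) ≤ a (σ 2) := hσ (by decide : (1 : Fin 4) ≤ 2)
  have h23 : a (σ 2) ≤ a (σ 3) := hσ (by decide : (2 : Fin 4) ≤ 3)
  refine ⟨⟨a (σ 3), a (σ 2), a (σ 1), a (σ 0)⟩, ⟨⟨a (σ 0), a (σ 3) - a (σ 2), a (σ 2) - a (σ 1),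
    a (σ 1) - a (σ 0)⟩, ⟨ha.1 _, by linarith, by linarith, by linarith⟩,
    by simp [pt, R4]; constructor <;> ring⟩, ?_⟩
  unfold bas
  congr 2
  rw [gens4, ← Equiv.sum_comp σ a, ← Equiv.sum_comp σ fun i => a i ^ 2,
    ← Equiv.sum_comp σ fun i => a i ^ 3, ← Equiv.sum_comp σ fun i => a i ^ 4]
  simp only [gens, cond_true, Fin.sum_univ_four, W4.mk.injEq]
  refine ⟨?_, ?_, ?_, ?_⟩ <;> ring

theorem perm4 (g : Fin 4 → Fin 4 → Fin 4 → Fin 4 → ℝ) :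
    ∑ π : Equiv.Perm (Fin 4), g (π 0) (π 1) (π 2) (π 3) =
    g 0 1 2 3 + g 0 1 3 2 + g 0 2 1 3 + g 0 2 3 1 + g 0 3 1 2 + g 0 3 2 1 +
    g 1 0 2 3 + g 1 0 3 2 + g 1 2 0 3 + g 1 2 3 0 + g 1 3 0 2 + g 1 3 2 0 +
    g 2 0 1 3 + g 2 0 3 1 + g 2 1 0 3 + g 2 1 3 0 + g 2 3 0 1 + g 2 3 1 0 +
    g 3 0 1 2 + g 3 0 2 1 + g 3 1 0 2 + g 3 1 2 0 + g 3 2 0 1 + g 3 2 1 0 := by
  have h : (Finset.univ : Finset (Equiv.Perm (Fin 4))).val.map (fun π => (π 0, π 1, π 2, π 3)) =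
      ([(0, 1, 2, 3), (0, 1, 3, 2), (0, 2, 1, 3), (0, 2, 3, 1), (0, 3, 1, 2), (0, 3, 2, 1),
    (1, 0, 2, 3), (1, 0, 3, 2), (1, 2, 0, 3), (1, 2, 3, 0), (1, 3, 0, 2), (1, 3, 2, 0),
    (2, 0, 1, 3), (2, 0, 3, 1), (2, 1, 0, 3), (2, 1, 3, 0), (2, 3, 0, 1), (2, 3, 1, 0),
    (3, 0, 1, 2), (3, 0, 2, 1), (3, 1, 0, 2), (3, 1, 2, 0), (3, 2, 0, 1), (3, 2, 1, 0)] :
    List (Fin 4 × Fin 4 × Fin 4 × Fin 4)) := by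
    decide +kernel
  have := congrArg (fun m => (Multiset.map (fun p : Fin 4 × Fin 4 × Fin 4 × Fin 4 =>
    g p.1 p.2.1 p.2.2.1 p.2.2.2) m).sum) h
  simp only [Multiset.map_map, Function.comp] at this
  rw [Finset.sum, this]
  simp [add_assoc]

theorem msym4 (τ : Tm) (a : Fin 4 → ℝ) : msym (lam4 τ) a = (bas false (pm4 τ.lam) (emb4 a)).sum := by
  simp only [msym, Fin.prod_univ_four]
  rw [perm4 fun i j k l => a i ^ lam4 τ 0 * a j ^ lam4 τ 1 * a k ^ lam4 τ 2 * a l ^ lam4 τ 3]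
  simp [bas, pm4, mono, gens, emb4, lam4]
  ring

theorem tab4_sound {E : List (W4 ℕ)} {D b : ℕ} {τ : Tm} (h : idOK pm4 ⟨true, D, E⟩ I4 b τ = true) :
    τ.n ≤ D ∧ ∑ i, lam4 τ i = τ.n ∧ ∀ a ∈ Sx 4,
      (τ.r 4 D : ℝ) * msym (lam4 τ) a = dz τ.L (bas true E (emb4 a)) := by
  refine ⟨(idOK_sound h ⟨0, 0, 0, 0⟩).1, by simp [lam4, Fin.sum_univ_four, Tm.n, deg], ?_⟩
  intro a ha
  have := (idOK_sound h ⟨a 0, a 1, a 2, a 3⟩).2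
  have e : pt I4 (⟨a 0, a 1, a 2, a 3⟩ : W4 ℝ) = emb4 a := by simp [pt, I4, emb4]
  rw [e, gens4, ha.2] at this
  rw [← this, msym4, Tm.r]; push_cast; ring

end Vale.Agent.P154
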