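import Mathlib

namespace Vale.Agent.P154

open scoped ENNReal

/-- The `q`-state Potts channel: probability that a child gets spin `j` when its parent has spin `i`. -/
noncomputable def chan (q : ℕ) (lam : ℝ) (i j : Fin q) : ℝ :=
  lam * (if i = j then 1 else 0) + (1 - lam) / q

/-- What the observer sees at depth `n`: the rooted tree cut at depth `n` together with the spins
of the vertices at depth `n`.  At depth `0` this is the spin of the root; at depth `n + 1` it is
the number `k` of children of the root and, for each child, what is seen at depth `n` below it. -/
def Obs (q : ℕ) : ℕ → Type
  | 0 => Fin q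
  | n + 1 => Σ k : ℕ, Fin k → Obs q n

open Classical in
/-- Probability of the observation `o` given that the root has spin `i`, for the Galton-Watson tree
whose offspring law is `off`: the root has `k` children with probability `off k`, and independently
each child receives a spin `j` through the channel and starts an independent copy. -/
noncomputable def like (q : ℕ) (lam : ℝ) (off : ℕ → ℝ) : (n : ℕ) → Fin q → Obs q n → ℝ
  | 0, i, o => if i = o then 1 else 0
  | n + 1, i, o => off o.1 * ∏ c : Fin o.1, ∑ j : Fin q, chan q lam i j * like q lam off n j (o.2 c)

/-- The quantity `a_n`: the expectation, under the law of the observation for a uniform root spin,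
of the total variation distance between the posterior law of the root spin and the uniform law. -/
noncomputable def adv (q : ℕ) (lam : ℝ) (off : ℕ → ℝ) (n : ℕ) : ℝ≥0∞ :=
  ∑' o : Obs q n, ENNReal.ofReal ((∑ j : Fin q, like q lam off n j o) / q *
    (1 / 2 * ∑ i : Fin q, |like q lam off n i o / (∑ j : Fin q, like q lam off n j o) - 1 / q|))

/-- Offspring law of the rooted `d`-ary tree. -/
noncomputable def offReg (d : ℕ) (k : ℕ) : ℝ := if k = d then 1 else 0

/-- Poisson offspring law of mean `d`. -/
noncomputable def offPoi (d : ℝ) (k : ℕ) : ℝ := Real.exp (-d) * d ^ k / k.factorial

end Vale.Agent.P154
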