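import Vale.Agent.P154.Model

namespace Vale.Agent.P154

open Filter Topology

/-- likelihood vectors normalised to mean one -/
def Sx (q : ℕ) : Set (Fin q → ℝ) := {a | (∀ i, 0 ≤ a i) ∧ ∑ i, a i = q}

noncomputable def mean {q : ℕ} (u : Fin q → ℝ) : ℝ := (∑ i, u i) / q

noncomputable def chi {q : ℕ} (a : Fin q → ℝ) : ℝ := (∑ i, (a i - 1) ^ 2) / q

/-- one-homogeneous extension of `f` -/
noncomputable def hom {q : ℕ} (f : (Fin q → ℝ) → ℝ) (u : Fin q → ℝ) : ℝ :=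
  mean u * f (fun i => u i / mean u)

structure Cert (q : ℕ) where
  ψ : (Fin q → ℝ) → ℝ
  α : (Fin q → ℝ) → ℝ
  γ : (Fin q → ℝ) → ℝ
  cψ : Continuous ψ
  cα : Continuous α
  cγ : Continuous γ
  t : ℝ
  δ : ℝ
  ht : 0 ≤ t
  hδ : 0 < δ
  hδ' : δ * (q : ℝ) ^ 2 ≤ 1
  I1 : ∀ a ∈ Sx q, ∀ b ∈ Sx q,
    ∑ σ : Equiv.Perm (Fin q), hom chi (fun i => a i * b (σ i)) ≤
      (q.factorial : ℝ) * (chi a + chi b - γ b * ψ a - γ a * ψ b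
        - δ * (chi a ^ 2 * chi b) - δ * (chi a * chi b ^ 2))
  I2 : ∀ a ∈ Sx q, ∀ b ∈ Sx q,
    (q.factorial : ℝ) * (α b * ψ a + α a * ψ b) ≤
      ∑ σ : Equiv.Perm (Fin q), hom ψ (fun i => a i * b (σ i))
  hγ : ∀ a ∈ Sx q, 0 ≤ γ a
  hα : ∀ a ∈ Sx q, t * ψ a ≤ α a
  hch : ∀ lam : ℝ, 0 ≤ lam → lam ≤ 1 → ∀ a ∈ Sx q,
    lam ^ 3 * ψ a ≤ ψ (fun i => lam * a i + (1 - lam))
  hv : ∀ j : Fin q, 0 ≤ ψ (fun i => if i = j then (q : ℝ) else 0)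
  hc : 0 ≤ ψ (fun _ => 1)

/-- the tree part: a certificate gives nonreconstruction -/
def StmtTree : Prop :=
  ∀ (q : ℕ), 2 ≤ q → Cert q → ∀ (lam : ℝ), 0 ≤ lam → lam ≤ 1 →
    ∀ (off : ℕ → ℝ) (d : ℝ), (∀ k, 0 ≤ off k) → HasSum off 1 →
      HasSum (fun k : ℕ => (k : ℝ) * off k) d → (∃ k, 2 ≤ k ∧ 0 < off k) → d * lam ^ 2 ≤ 1 →
      Tendsto (adv q lam off) atTop (𝓝 0)

/-- the two offspring laws -/
def StmtOff : Prop :=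
  (∀ d : ℕ, 2 ≤ d → (∀ k, 0 ≤ offReg d k) ∧ HasSum (offReg d) 1 ∧
      HasSum (fun k : ℕ => (k : ℝ) * offReg d k) d ∧ ∃ k, 2 ≤ k ∧ 0 < offReg d k) ∧
  (∀ d : ℝ, 0 < d → (∀ k, 0 ≤ offPoi d k) ∧ HasSum (offPoi d) 1 ∧
      HasSum (fun k : ℕ => (k : ℝ) * offPoi d k) d ∧ ∃ k, 2 ≤ k ∧ 0 < offPoi d k)

end Vale.Agent.P154
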