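import Vale.Agent.P154.Spec

namespace Vale.Agent.P154

open Filter Topology

namespace Tr

variable {q : ℕ}

/-- normalisation to mean one -/
noncomputable def nr (u : Fin q → ℝ) : Fin q → ℝ :=
  if mean u = 0 then fun _ => 1 else fun i => u i / mean u

lemma hom_eq (f : (Fin q → ℝ) → ℝ) (u : Fin q → ℝ) : hom f u = mean u * f (nr u) := by
  unfold hom nr
  split_ifs with h
  · simp [h]
  · rfl

lemma mean_nonneg {u : Fin q → ℝ} (hu : ∀ i, 0 ≤ u i) : 0 ≤ mean u :=
  div_nonneg (Finset.sum_nonneg fun i _ => hu i) (Nat.cast_nonneg _)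

lemma sum_eq (hq : 2 ≤ q) (u : Fin q → ℝ) : ∑ i, u i = q * mean u := by
  have : (q : ℝ) ≠ 0 := by positivity
  unfold mean; field_simp

lemma nr_mem (hq : 2 ≤ q) {u : Fin q → ℝ} (hu : ∀ i, 0 ≤ u i) : nr u ∈ Sx q := by
  unfold nr
  split_ifs with h
  · exact ⟨fun _ => zero_le_one, by simp⟩
  · refine ⟨fun i => div_nonneg (hu i) (mean_nonneg hu), ?_⟩
    rw [← Finset.sum_div, sum_eq hq]; field_simp

lemma eq_mul_nr (hq : 2 ≤ q) {u : Fin q → ℝ} (hu : ∀ i, 0 ≤ u i) (i : Fin q) :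
    u i = mean u * nr u i := by
  unfold nr
  split_ifs with h
  · have h1 : ∑ i, u i = 0 := by rw [sum_eq hq, h, mul_zero]
    rw [h, zero_mul]
    exact (Finset.sum_eq_zero_iff_of_nonneg (fun i _ => hu i)).1 h1 i (Finset.mem_univ _)
  · field_simp

lemma mean_smul (c : ℝ) (u : Fin q → ℝ) : mean (fun i => c * u i) = c * mean u := by
  unfold mean; rw [← Finset.mul_sum, mul_div_assoc]

lemma hom_smul (f : (Fin q → ℝ) → ℝ) (c : ℝ) (u : Fin q → ℝ) :
    hom f (fun i => c * u i) = c * hom f u := by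
  unfold hom
  rw [mean_smul]
  by_cases hc : c = 0
  · simp [hc]
  · have : (fun i => c * u i / (c * mean u)) = fun i => u i / mean u := by
      funext i; rw [mul_div_mul_left _ _ hc]
    rw [this, mul_assoc]

lemma mean_of_mem (hq : 2 ≤ q) {a : Fin q → ℝ} (ha : a ∈ Sx q) : mean a = 1 := by
  have : (q : ℝ) ≠ 0 := by positivity
  unfold mean; rw [ha.2]; field_simp

lemma hom_of_mem (hq : 2 ≤ q) (f : (Fin q → ℝ) → ℝ) {a : Fin q → ℝ} (ha : a ∈ Sx q) :
    hom f a = f a := by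
  unfold hom; rw [mean_of_mem hq ha]; simp

/-- bounded on the simplex -/
def Bd (f : (Fin q → ℝ) → ℝ) : Prop := ∃ C, ∀ a ∈ Sx q, |f a| ≤ C

lemma le_of_mem {a : Fin q → ℝ} (ha : a ∈ Sx q) (i : Fin q) : a i ≤ q := by
  rw [← ha.2]
  exact Finset.single_le_sum (fun j _ => ha.1 j) (Finset.mem_univ i)

lemma bd_of_cont {f : (Fin q → ℝ) → ℝ} (hf : Continuous f) : Bd f := by
  have hK : IsCompact (Set.Icc (fun _ : Fin q => (0 : ℝ)) (fun _ => (q : ℝ))) := isCompact_Icc
  obtain ⟨C, hC⟩ := hK.exists_bound_of_continuousOn hf.continuousOn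
  exact ⟨C, fun a ha => hC a ⟨fun i => ha.1 i, fun i => le_of_mem ha i⟩⟩

lemma cont_chi : Continuous (chi : (Fin q → ℝ) → ℝ) := by
  unfold chi; fun_prop

lemma chi_nonneg (a : Fin q → ℝ) : 0 ≤ chi a :=
  div_nonneg (Finset.sum_nonneg fun _ _ => sq_nonneg _) (Nat.cast_nonneg _)

lemma chi_le (hq : 2 ≤ q) {a : Fin q → ℝ} (ha : a ∈ Sx q) : chi a ≤ q := by
  have hq' : (0 : ℝ) < q := by positivity
  unfold chi
  rw [div_le_iff₀ hq']
  have h1 : ∑ i, (a i - 1) ^ 2 ≤ ∑ i, ((q - 2 : ℝ) * a i + 1) :=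
    Finset.sum_le_sum fun i _ => by nlinarith [ha.1 i, le_of_mem ha i]
  rw [Finset.sum_add_distrib, ← Finset.mul_sum, ha.2] at h1
  simp only [Finset.sum_const, Finset.card_univ, Fintype.card_fin, nsmul_eq_mul, mul_one] at h1
  nlinarith

/-- a symmetric family of likelihood vectors -/
structure IsSys {O : Type} (v : O → Fin q → ℝ) : Prop where
  nn : ∀ o i, 0 ≤ v o i
  hs : ∀ i, HasSum (fun o => v o i) 1
  sym : ∀ σ : Equiv.Perm (Fin q), ∃ e : O ≃ O, ∀ o i, v (e o) i = v o (σ i)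

noncomputable def E {O : Type} (v : O → Fin q → ℝ) (f : (Fin q → ℝ) → ℝ) : ℝ :=
  ∑' o, hom f (v o)

section basic
variable {O : Type} {v : O → Fin q → ℝ}

lemma IsSys.hasSum_mean (hq : 2 ≤ q) (h : IsSys v) : HasSum (fun o => mean (v o)) 1 := by
  have : (q : ℝ) ≠ 0 := by positivity
  have h1 := (hasSum_sum (s := Finset.univ) fun i _ => h.hs i).div_const (q : ℝ)
  simp only [Finset.sum_const, Finset.card_univ, Fintype.card_fin, nsmul_eq_mul, mul_one,
    div_self this] at h1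
  exact h1

lemma IsSys.hasSum (hq : 2 ≤ q) (h : IsSys v) {f : (Fin q → ℝ) → ℝ} (hf : Bd f) :
    HasSum (fun o => hom f (v o)) (E v f) := by
  obtain ⟨C, hC⟩ := hf
  refine Summable.hasSum ?_
  refine Summable.of_norm_bounded ((h.hasSum_mean hq).summable.mul_right C) fun o => ?_
  rw [hom_eq, Real.norm_eq_abs, abs_mul, abs_of_nonneg (mean_nonneg (h.nn o))]
  exact mul_le_mul_of_nonneg_left (hC _ (nr_mem hq (h.nn o))) (mean_nonneg (h.nn o))

lemma IsSys.hasSum' (hq : 2 ≤ q) (h : IsSys v) {f : (Fin q → ℝ) → ℝ} (hf : Bd f) :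
    HasSum (fun o => mean (v o) * f (nr (v o))) (E v f) := by
  simpa only [hom_eq] using h.hasSum hq hf

lemma IsSys.E_nonneg (hq : 2 ≤ q) (h : IsSys v) {f : (Fin q → ℝ) → ℝ}
    (hf : ∀ a ∈ Sx q, 0 ≤ f a) : 0 ≤ E v f :=
  tsum_nonneg fun o => by
    rw [hom_eq]; exact mul_nonneg (mean_nonneg (h.nn o)) (hf _ (nr_mem hq (h.nn o)))

/-- comparison `c * f + k ≤ g` -/
lemma IsSys.E_le (hq : 2 ≤ q) (h : IsSys v) {f g : (Fin q → ℝ) → ℝ} (hf : Bd f) (hg : Bd g)
    (c k : ℝ) (hfg : ∀ a ∈ Sx q, c * f a + k ≤ g a) : c * E v f + k ≤ E v g := by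
  have h1 := ((h.hasSum' hq hf).mul_left c).add ((h.hasSum_mean hq).mul_right k)
  rw [one_mul] at h1
  refine hasSum_le (fun o => ?_) h1 (h.hasSum' hq hg)
  have := mul_le_mul_of_nonneg_left (hfg _ (nr_mem hq (h.nn o))) (mean_nonneg (h.nn o))
  nlinarith

lemma IsSys.E_chi_le (hq : 2 ≤ q) (h : IsSys v) : E v chi ≤ q := by
  have h1 := (h.hasSum_mean hq).mul_right (q : ℝ)
  rw [one_mul] at h1
  refine hasSum_le (fun o => ?_) (h.hasSum' hq (bd_of_cont cont_chi)) h1
  exact mul_le_mul_of_nonneg_left (chi_le hq (nr_mem hq (h.nn o))) (mean_nonneg (h.nn o))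

lemma IsSys.jensen (hq : 2 ≤ q) (h : IsSys v) :
    E v chi ^ 2 ≤ E v (fun a => chi a ^ 2) := by
  have := h.E_le hq (bd_of_cont cont_chi) (g := fun a => chi a ^ 2)
    (bd_of_cont (cont_chi.pow 2)) (2 * E v chi) (-(E v chi) ^ 2)
    (fun a _ => by nlinarith [sq_nonneg (chi a - E v chi)])
  nlinarith

lemma IsSys.comp {O' : Type} (h : IsSys v) (e : O' ≃ O) : IsSys (fun o => v (e o)) where
  nn o i := h.nn _ i
  hs i := (e.hasSum_iff (f := fun o => v o i)).2 (h.hs i)
  sym σ := by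
    obtain ⟨g, hg⟩ := h.sym σ
    exact ⟨(e.trans g).trans e.symm, fun o i => by simp [hg]⟩

lemma E_comp {O' : Type} (e : O' ≃ O) (f : (Fin q → ℝ) → ℝ) :
    E (fun o => v (e o)) f = E v f :=
  e.tsum_eq (fun o => hom f (v o))

end basic

section prod
variable {O O' : Type} {v : O → Fin q → ℝ} {w : O' → Fin q → ℝ}

/-- product system -/
def pr (v : O → Fin q → ℝ) (w : O' → Fin q → ℝ) : O × O' → Fin q → ℝ :=
  fun p i => v p.1 i * w p.2 i

lemma IsSys.pr (h : IsSys v) (h' : IsSys w) : IsSys (pr v w) where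
  nn p i := mul_nonneg (h.nn _ i) (h'.nn _ i)
  hs i := by
    have := (h.hs i).mul (h'.hs i)
      (summable_mul_of_summable_norm (h.hs i).summable.norm (h'.hs i).summable.norm)
    rw [one_mul] at this
    exact this
  sym σ := by
    obtain ⟨e, he⟩ := h.sym σ
    obtain ⟨e', he'⟩ := h'.sym σ
    exact ⟨e.prodCongr e', fun p i => by simp [Tr.pr, he, he']⟩

lemma hasSum_avg (hq : 2 ≤ q) (h : IsSys v) (h' : IsSys w) {f : (Fin q → ℝ) → ℝ} (hf : Bd f) :
    HasSum (fun p : O × O' => mean (v p.1) * mean (w p.2) *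
      ∑ σ : Equiv.Perm (Fin q), hom f (fun i => nr (v p.1) i * nr (w p.2) (σ i)))
      ((q.factorial : ℝ) * E (pr v w) f) := by
  have h1 : ∀ σ : Equiv.Perm (Fin q), HasSum (fun p : O × O' => mean (v p.1) * mean (w p.2) *
      hom f (fun i => nr (v p.1) i * nr (w p.2) (σ i))) (E (pr v w) f) := by
    intro σ
    obtain ⟨e, he⟩ := h'.sym σ
    have h2 := (((Equiv.refl O).prodCongr e).hasSum_iff (f := fun p => hom f (pr v w p))).2
      ((h.pr h').hasSum hq hf)
    convert h2 using 2 with p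
    rw [← hom_smul]
    simp only [Function.comp_apply]
    congr 1
    funext i
    simp only [pr, Equiv.prodCongr_apply, Prod.map_fst, Prod.map_snd, Equiv.refl_apply, he]
    rw [eq_mul_nr hq (h.nn p.1) i, eq_mul_nr hq (h'.nn p.2) (σ i)]
    ring
  have h2 := hasSum_sum (s := Finset.univ) fun σ _ => h1 σ
  simp only [Finset.sum_const, Finset.card_univ, Fintype.card_perm, Fintype.card_fin,
    nsmul_eq_mul] at h2
  simpa only [Finset.mul_sum] using h2

lemma hasSum_mul (hq : 2 ≤ q) (h : IsSys v) (h' : IsSys w) {f g : (Fin q → ℝ) → ℝ}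
    (hf : Bd f) (hg : Bd g) :
    HasSum (fun p : O × O' => (mean (v p.1) * f (nr (v p.1))) * (mean (w p.2) * g (nr (w p.2))))
      (E v f * E w g) := by
  have h1 := h.hasSum' hq hf
  have h2 := h'.hasSum' hq hg
  exact h1.mul h2 (summable_mul_of_summable_norm h1.summable.norm h2.summable.norm)

lemma bd_one : Bd (fun _ : Fin q → ℝ => (1 : ℝ)) := ⟨1, fun _ _ => by simp⟩

lemma IsSys.E_one (hq : 2 ≤ q) (h : IsSys v) : E v (fun _ => (1 : ℝ)) = 1 := by
  refine (h.hasSum' hq bd_one).unique ?_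
  simpa using h.hasSum_mean hq

lemma pr_psi (hq : 2 ≤ q) (C : Cert q) (h : IsSys v) (h' : IsSys w) (hv : 0 ≤ E v C.ψ)
    (hw : 0 ≤ E w C.ψ) : 0 ≤ E (pr v w) C.ψ := by
  have bψ := bd_of_cont C.cψ
  have bα := bd_of_cont C.cα
  have h1 := ((hasSum_mul hq h h' bψ bα).add (hasSum_mul hq h h' bα bψ)).mul_left
    (q.factorial : ℝ)
  have h2 := hasSum_le (fun p => ?_) h1 (hasSum_avg hq h h' bψ)
  · have hF : (0 : ℝ) < q.factorial := by positivity
    have h3 := le_of_mul_le_mul_left h2 hF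
    have a1 := h.E_le hq bψ bα C.t 0 (fun a ha => by simpa using C.hα a ha)
    have a2 := h'.E_le hq bψ bα C.t 0 (fun a ha => by simpa using C.hα a ha)
    have b1 : 0 ≤ E v C.α := by have := mul_nonneg C.ht hv; linarith
    have b2 : 0 ≤ E w C.α := by have := mul_nonneg C.ht hw; linarith
    have := mul_nonneg hv b2
    have := mul_nonneg b1 hw
    linarith
  · have := mul_le_mul_of_nonneg_left (C.I2 _ (nr_mem hq (h.nn p.1)) _ (nr_mem hq (h'.nn p.2)))
      (mul_nonneg (mean_nonneg (h.nn p.1)) (mean_nonneg (h'.nn p.2)))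
    refine le_trans (le_of_eq ?_) this
    ring

lemma pr_chi (hq : 2 ≤ q) (C : Cert q) (h : IsSys v) (h' : IsSys w) (hv : 0 ≤ E v C.ψ)
    (hw : 0 ≤ E w C.ψ) :
    E (pr v w) chi ≤ E v chi + E w chi - C.δ * (E v chi ^ 2 * E w chi) := by
  have bψ := bd_of_cont C.cψ
  have bγ := bd_of_cont C.cγ
  have bχ : Bd (chi : (Fin q → ℝ) → ℝ) := bd_of_cont cont_chi
  have bχ2 : Bd (fun a : Fin q → ℝ => chi a ^ 2) := bd_of_cont (cont_chi.pow 2)
  have h1 := ((((((hasSum_mul hq h h' bχ bd_one).add (hasSum_mul hq h h' bd_one bχ)).sub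
    (hasSum_mul hq h h' bψ bγ)).sub (hasSum_mul hq h h' bγ bψ)).sub
    ((hasSum_mul hq h h' bχ2 bχ).mul_left C.δ)).sub
    ((hasSum_mul hq h h' bχ bχ2).mul_left C.δ)).mul_left (q.factorial : ℝ)
  have h2 := hasSum_le (fun p => ?_) (hasSum_avg hq h h' bχ) h1
  · have hF : (0 : ℝ) < q.factorial := by positivity
    have h3 := le_of_mul_le_mul_left h2 hF
    rw [h.E_one hq, h'.E_one hq] at h3
    have g1 := h.E_nonneg hq C.hγ
    have g2 := h'.E_nonneg hq C.hγ
    have c1 := h.E_nonneg hq (f := chi) (fun a _ => chi_nonneg a)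
    have c2 := h'.E_nonneg hq (f := chi) (fun a _ => chi_nonneg a)
    have d2 := h'.E_nonneg hq (f := fun a => chi a ^ 2) (fun a _ => sq_nonneg _)
    have j1 := mul_le_mul_of_nonneg_left
      (mul_le_mul_of_nonneg_right (h.jensen hq) c2) C.hδ.le
    have := mul_nonneg hv g2
    have := mul_nonneg g1 hw
    have := mul_nonneg C.hδ.le (mul_nonneg c1 d2)
    linarith
  · have := mul_le_mul_of_nonneg_left (C.I1 _ (nr_mem hq (h.nn p.1)) _ (nr_mem hq (h'.nn p.2)))
      (mul_nonneg (mean_nonneg (h.nn p.1)) (mean_nonneg (h'.nn p.2)))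
    refine le_trans this (le_of_eq ?_)
    ring

end prod

section chan
variable {O : Type} {v : O → Fin q → ℝ}

/-- the system seen through the channel -/
noncomputable def ch (lam : ℝ) (v : O → Fin q → ℝ) : O → Fin q → ℝ :=
  fun o i => ∑ j, chan q lam i j * v o j

lemma ch_eq (lam : ℝ) (o : O) (i : Fin q) :
    ch lam v o i = lam * v o i + (1 - lam) * mean (v o) := by
  unfold ch chan mean
  simp only [add_mul, Finset.sum_add_distrib, mul_ite, mul_one, mul_zero, ite_mul, zero_mul,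
    Finset.sum_ite_eq, Finset.mem_univ, if_true, ← Finset.mul_sum]
  ring

lemma IsSys.ch (hq : 2 ≤ q) (h : IsSys v) {lam : ℝ} (h0 : 0 ≤ lam) (h1 : lam ≤ 1) :
    IsSys (ch lam v) where
  nn o i := by
    rw [ch_eq]
    exact add_nonneg (mul_nonneg h0 (h.nn o i)) (mul_nonneg (by linarith) (mean_nonneg (h.nn o)))
  hs i := by
    have := ((h.hs i).mul_left lam).add ((h.hasSum_mean hq).mul_left (1 - lam))
    simp only [mul_one, add_sub_cancel] at this
    simpa only [ch_eq] using this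
  sym σ := by
    obtain ⟨e, he⟩ := h.sym σ
    refine ⟨e, fun o i => ?_⟩
    rw [ch_eq, ch_eq, he]
    congr 2
    unfold mean
    simp only [he]
    rw [Equiv.sum_comp σ (v o)]

lemma mix_mem {lam : ℝ} (h0 : 0 ≤ lam) (h1 : lam ≤ 1) {a : Fin q → ℝ} (ha : a ∈ Sx q) :
    (fun i => lam * a i + (1 - lam)) ∈ Sx q := by
  refine ⟨fun i => add_nonneg (mul_nonneg h0 (ha.1 i)) (by linarith), ?_⟩
  rw [Finset.sum_add_distrib, ← Finset.mul_sum, ha.2]
  simp only [Finset.sum_const, Finset.card_univ, Fintype.card_fin, nsmul_eq_mul]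
  ring

lemma E_ch (hq : 2 ≤ q) (h : IsSys v) {lam : ℝ} (h0 : 0 ≤ lam) (h1 : lam ≤ 1)
    (f : (Fin q → ℝ) → ℝ) :
    E (ch lam v) f = E v (fun a => f (fun i => lam * a i + (1 - lam))) := by
  unfold E
  congr 1
  funext o
  have : ch lam v o = fun i => mean (v o) * (lam * nr (v o) i + (1 - lam)) := by
    funext i
    rw [ch_eq]
    conv_lhs => rw [eq_mul_nr hq (h.nn o) i]
    ring
  rw [this, hom_smul, hom_of_mem hq _ (mix_mem h0 h1 (nr_mem hq (h.nn o))), hom_eq]

lemma ch_chi (hq : 2 ≤ q) (h : IsSys v) {lam : ℝ} (h0 : 0 ≤ lam) (h1 : lam ≤ 1) :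
    E (ch lam v) chi = lam ^ 2 * E v chi := by
  rw [E_ch hq h h0 h1]
  unfold E
  rw [← tsum_mul_left]
  congr 1
  funext o
  rw [hom_eq, hom_eq]
  have : ∀ a : Fin q → ℝ, chi (fun i => lam * a i + (1 - lam)) = lam ^ 2 * chi a := by
    intro a
    unfold chi
    rw [← mul_div_assoc, Finset.mul_sum]
    congr 1
    exact Finset.sum_congr rfl fun i _ => by ring
  rw [this]; ring

lemma ch_psi (hq : 2 ≤ q) (C : Cert q) (h : IsSys v) {lam : ℝ} (h0 : 0 ≤ lam) (h1 : lam ≤ 1)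
    (hv : 0 ≤ E v C.ψ) : 0 ≤ E (ch lam v) C.ψ := by
  rw [E_ch hq h h0 h1]
  have hc : Continuous (fun a : Fin q → ℝ => C.ψ (fun i => lam * a i + (1 - lam))) :=
    C.cψ.comp (by fun_prop)
  have := h.E_le hq (bd_of_cont C.cψ) (bd_of_cont hc) (lam ^ 3) 0
    (fun a ha => by simpa using C.hch lam h0 h1 a ha)
  have h2 := mul_nonneg (pow_nonneg h0 3) hv
  linarith

end chan

section pow
variable {O : Type} {v : O → Fin q → ℝ}

/-- `k` independent copies -/
noncomputable def pw (v : O → Fin q → ℝ) (k : ℕ) : (Fin k → O) → Fin q → ℝ :=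
  fun o i => ∏ c, v (o c) i

lemma pw_succ (k : ℕ) :
    pw v (k + 1) = fun o => pr v (pw v k) ((Fin.consEquiv fun _ : Fin (k + 1) => O).symm o) := by
  funext o i
  simp [pw, pr, Fin.prod_univ_succ, Fin.consEquiv, Fin.tail]

lemma one_mem : (fun _ : Fin q => (1 : ℝ)) ∈ Sx q := ⟨fun _ => zero_le_one, by simp⟩

lemma E_pw_zero (hq : 2 ≤ q) (f : (Fin q → ℝ) → ℝ) : E (pw v 0) f = f (fun _ => 1) := by
  unfold E
  rw [tsum_fintype]
  have : ∀ o : Fin 0 → O, pw v 0 o = fun _ => 1 := fun o => by funext i; simp [pw]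
  simp only [this, hom_of_mem hq f one_mem]
  simp

lemma IsSys.pw (h : IsSys v) : ∀ k, IsSys (pw v k)
  | 0 =>
    { nn := fun o i => by simp [Tr.pw]
      hs := fun i => by
        have := hasSum_fintype (fun o : Fin 0 → O => Tr.pw v 0 o i)
        simpa [Tr.pw] using this
      sym := fun σ => ⟨Equiv.refl _, fun o i => by simp [Tr.pw]⟩ }
  | k + 1 => by
    rw [pw_succ]
    exact (h.pr (IsSys.pw h k)).comp _

lemma pw_psi (hq : 2 ≤ q) (C : Cert q) (h : IsSys v) (hv : 0 ≤ E v C.ψ) :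
    ∀ k, 0 ≤ E (pw v k) C.ψ
  | 0 => by rw [E_pw_zero hq]; exact C.hc
  | k + 1 => by
    rw [pw_succ, E_comp]
    exact pr_psi hq C h (h.pw k) hv (pw_psi hq C h hv k)

lemma pw_chi_succ (hq : 2 ≤ q) (C : Cert q) (h : IsSys v) (hv : 0 ≤ E v C.ψ) (k : ℕ) :
    E (pw v (k + 1)) chi ≤ E v chi + E (pw v k) chi - C.δ * (E v chi ^ 2 * E (pw v k) chi) := by
  conv_lhs => rw [pw_succ, E_comp]
  exact pr_chi hq C h (h.pw k) hv (pw_psi hq C h hv k)

lemma pw_chi (hq : 2 ≤ q) (C : Cert q) (h : IsSys v) (hv : 0 ≤ E v C.ψ) (k : ℕ) :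
    E (pw v k) chi ≤ k * E v chi - if 2 ≤ k then C.δ * E v chi ^ 3 else 0 := by
  have c0 := h.E_nonneg hq (f := chi) (fun a _ => chi_nonneg a)
  have ck : ∀ k, 0 ≤ E (pw v k) chi := fun k =>
    (h.pw k).E_nonneg hq (f := chi) (fun a _ => chi_nonneg a)
  have hδ := C.hδ
  have hx : C.δ * E v chi ^ 2 ≤ 1 := by
    refine le_trans ?_ C.hδ'
    have := h.E_chi_le hq
    gcongr
  have y0 : E (pw v 0) chi = 0 := by rw [E_pw_zero hq]; simp [chi]
  have y1 : E (pw v 1) chi ≤ E v chi := by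
    have := pw_chi_succ hq C h hv 0
    rw [y0] at this; simpa using this
  have y2 : ∀ k : ℕ, E (pw v (k + 2)) chi ≤ (k + 2 : ℕ) * E v chi - C.δ * E v chi ^ 3 := by
    intro k
    induction k with
    | zero =>
      have := pw_chi_succ hq C h hv 1
      have h3 := mul_le_mul_of_nonneg_left y1 (sub_nonneg.2 hx)
      push_cast
      nlinarith
    | succ k ih =>
      have := pw_chi_succ hq C h hv (k + 2)
      have h3 := mul_nonneg hδ.le (mul_nonneg (sq_nonneg (E v chi)) (ck (k + 2)))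
      push_cast at ih ⊢
      have e : k + 1 + 2 = k + 2 + 1 := by ring
      rw [e]
      nlinarith
  match k with
  | 0 => simp [y0]
  | 1 => simpa using y1
  | k + 2 => simpa using y2 k

end pow

section mix
variable {O : Type} {v : O → Fin q → ℝ} {off : ℕ → ℝ}

/-- mixture over the number of children -/
noncomputable def mx (off : ℕ → ℝ) (v : O → Fin q → ℝ) : (Σ k : ℕ, Fin k → O) → Fin q → ℝ :=
  fun o i => off o.1 * pw v o.1 o.2 i

lemma IsSys.mx (h : IsSys v) (h0 : ∀ k, 0 ≤ off k) (h1 : HasSum off 1) : IsSys (mx off v) where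
  nn o i := mul_nonneg (h0 _) ((h.pw _).nn _ i)
  hs i := by
    have hk : ∀ k, HasSum (fun o : Fin k → O => Tr.mx off v ⟨k, o⟩ i) (off k) := fun k => by
      simpa [Tr.mx] using ((h.pw k).hs i).mul_left (off k)
    have hs : Summable (fun o => Tr.mx off v o i) := by
      refine (summable_sigma_of_nonneg (f := fun o => Tr.mx off v o i)
        (fun o => mul_nonneg (h0 _) ((h.pw _).nn _ i))).2 ⟨fun k => (hk k).summable, ?_⟩
      have : (fun k => ∑' o : Fin k → O, Tr.mx off v ⟨k, o⟩ i) = off :=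
        funext fun k => (hk k).tsum_eq
      rw [this]; exact h1.summable
    have := (hs.hasSum.sigma hk).unique h1
    exact this ▸ hs.hasSum
  sym σ := by
    choose e he using fun k => (h.pw k).sym σ
    exact ⟨Equiv.sigmaCongrRight e, fun ⟨k, o⟩ i => congrArg (off k * ·) (he k o i)⟩

lemma hasSum_mx (hq : 2 ≤ q) (h : IsSys v) (h0 : ∀ k, 0 ≤ off k) (h1 : HasSum off 1)
    {f : (Fin q → ℝ) → ℝ} (hf : Bd f) :
    HasSum (fun k => off k * E (pw v k) f) (E (mx off v) f) := by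
  refine ((h.mx h0 h1).hasSum hq hf).sigma fun k => ?_
  have := ((h.pw k).hasSum hq hf).mul_left (off k)
  simp only [← hom_smul] at this
  exact this

end mix

section tree
variable {lam : ℝ} {off : ℕ → ℝ}

noncomputable def V (q : ℕ) (lam : ℝ) (off : ℕ → ℝ) (n : ℕ) : Obs q n → Fin q → ℝ :=
  fun o i => like q lam off n i o

lemma V_succ (n : ℕ) : V q lam off (n + 1) = mx off (ch lam (V q lam off n)) := rfl

lemma V_zero_sys : IsSys (V q lam off 0) where
  nn o i := by simp only [V, like]; split_ifs <;> simp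
  hs i := by
    have := hasSum_single (f := fun o : Obs q 0 => V q lam off 0 o i) (i : Obs q 0)
      (fun o ho => by simp only [V, like]; exact if_neg (Ne.symm ho))
    simpa [V, like] using this
  sym σ := ⟨σ.symm, fun o i => by
    simp only [V, like]
    congr 1
    exact propext σ.eq_symm_apply⟩

lemma V_zero_psi (hq : 2 ≤ q) (C : Cert q) : 0 ≤ E (V q lam off 0) C.ψ := by
  refine tsum_nonneg fun o => ?_
  have hq' : (q : ℝ) ≠ 0 := by positivity
  let j : Fin q := o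
  have h1 : V q lam off 0 o = fun i => (1 / q : ℝ) * (if i = j then (q : ℝ) else 0) := by
    funext i
    simp only [V, like]
    by_cases hi : i = j
    · rw [if_pos hi, if_pos hi]; field_simp
    · rw [if_neg hi, if_neg hi]; simp
  have h2 : (fun i => if i = j then (q : ℝ) else 0) ∈ Sx q :=
    ⟨fun i => by dsimp only; split_ifs <;> positivity, by simp⟩
  rw [h1, hom_smul, hom_of_mem hq _ h2]
  exact mul_nonneg (by positivity) (C.hv j)

lemma V_sys (hq : 2 ≤ q) (C : Cert q) (h0 : 0 ≤ lam) (h1 : lam ≤ 1) (o0 : ∀ k, 0 ≤ off k)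
    (o1 : HasSum off 1) : ∀ n, IsSys (V q lam off n) ∧ 0 ≤ E (V q lam off n) C.ψ
  | 0 => ⟨V_zero_sys, V_zero_psi hq C⟩
  | n + 1 => by
    obtain ⟨h, hp⟩ := V_sys hq C h0 h1 o0 o1 n
    rw [V_succ]
    have hc := h.ch hq h0 h1
    refine ⟨hc.mx o0 o1, ?_⟩
    exact (hasSum_mx hq hc o0 o1 (bd_of_cont C.cψ)).nonneg fun k =>
      mul_nonneg (o0 k) (pw_psi hq C hc (ch_psi hq C h h0 h1 hp) k)

lemma V_step (hq : 2 ≤ q) (C : Cert q) (h0 : 0 ≤ lam) (h1 : lam ≤ 1) (o0 : ∀ k, 0 ≤ off k)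
    (o1 : HasSum off 1) {d : ℝ} (od : HasSum (fun k : ℕ => (k : ℝ) * off k) d) {k0 : ℕ}
    (hk : 2 ≤ k0) (n : ℕ) :
    E (V q lam off (n + 1)) chi ≤ d * lam ^ 2 * E (V q lam off n) chi
      - off k0 * C.δ * lam ^ 6 * E (V q lam off n) chi ^ 3 := by
  obtain ⟨h, hp⟩ := V_sys hq C h0 h1 o0 o1 n
  have hc := h.ch hq h0 h1
  have hcp := ch_psi hq C h h0 h1 hp
  set y := E (ch lam (V q lam off n)) chi with hy
  have y0 : 0 ≤ y := hc.E_nonneg hq (f := chi) (fun a _ => chi_nonneg a)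
  have s1 := hasSum_mx hq hc o0 o1 (bd_of_cont cont_chi)
  have s2 := (od.mul_right y).sub
    (hasSum_single (f := fun k => if k = k0 then off k0 * (C.δ * y ^ 3) else 0) k0
      (fun k hk => if_neg hk))
  have := hasSum_le (fun k => ?_) s1 s2
  · rw [V_succ]
    refine this.trans (le_of_eq ?_)
    rw [if_pos rfl, hy, ch_chi hq h h0 h1]
    ring
  · have h3 := mul_le_mul_of_nonneg_left (pw_chi hq C hc hcp k) (o0 k)
    rw [← hy] at h3
    refine h3.trans ?_
    have h4 := mul_nonneg (o0 k) (mul_nonneg C.hδ.le (pow_nonneg y0 3))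
    by_cases hkk : k = k0
    · subst hkk
      rw [if_pos hk, if_pos rfl]; linarith
    · rw [if_neg hkk]
      split_ifs <;> linarith

lemma tendsto_zero_of_step {x : ℕ → ℝ} {c : ℝ} (hc : 0 < c) (h0 : ∀ n, 0 ≤ x n)
    (hs : ∀ n, x (n + 1) ≤ x n - c * x n ^ 3) : Tendsto x atTop (𝓝 0) := by
  have ha : Antitone x := antitone_nat_of_succ_le fun n => by
    have := mul_nonneg hc.le (pow_nonneg (h0 n) 3)
    linarith [hs n]
  have hb : BddBelow (Set.range x) := ⟨0, by rintro _ ⟨n, rfl⟩; exact h0 n⟩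
  have hl := tendsto_atTop_ciInf ha hb
  set L := ⨅ n, x n
  have hL : 0 ≤ L := ge_of_tendsto' hl h0
  have h2 : Tendsto (fun n => x n - c * x n ^ 3) atTop (𝓝 (L - c * L ^ 3)) :=
    hl.sub ((hl.pow 3).const_mul c)
  have h3 := le_of_tendsto_of_tendsto' ((tendsto_add_atTop_iff_nat 1).2 hl) h2 hs
  have h4 : L ^ 3 ≤ 0 := by
    by_contra h5
    have := mul_pos hc (not_le.1 h5)
    linarith
  have h5 : L = 0 := by
    by_contra h6
    have := pow_pos (lt_of_le_of_ne hL (Ne.symm h6)) 3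
    linarith
  rwa [h5] at hl

lemma tv_le (hq : 2 ≤ q) {u : Fin q → ℝ} (hu : ∀ i, 0 ≤ u i) {ε : ℝ} (hε : 0 < ε) :
    (∑ j, u j) / q * (1 / 2 * ∑ i, |u i / (∑ j, u j) - 1 / q|) ≤
      mean u * ε + ε⁻¹ * hom chi u := by
  have hq' : (0 : ℝ) < q := by positivity
  rw [hom_eq]
  change mean u * _ ≤ _
  have hm := mean_nonneg hu
  by_cases h : mean u = 0
  · simp [h]
  have h1 : ∀ i, |u i / (∑ j, u j) - 1 / q| ≤ (ε + ε⁻¹ * (nr u i - 1) ^ 2) / q := by
    intro i
    have : u i / (∑ j, u j) - 1 / q = (nr u i - 1) / q := by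
      rw [sum_eq hq, nr, if_neg h]; field_simp
    rw [this, abs_div, abs_of_pos hq']
    gcongr
    have h2 : |nr u i - 1| * ε ≤ (ε + ε⁻¹ * (nr u i - 1) ^ 2) * ε := by
      have : (ε + ε⁻¹ * (nr u i - 1) ^ 2) * ε = ε ^ 2 + |nr u i - 1| ^ 2 := by
        rw [sq_abs]; field_simp
      rw [this]
      nlinarith [sq_nonneg (|nr u i - 1| - ε), abs_nonneg (nr u i - 1)]
    exact le_of_mul_le_mul_right h2 hε
  have h2 : ∑ i, |u i / (∑ j, u j) - 1 / q| ≤ ε + ε⁻¹ * chi (nr u) := by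
    refine (Finset.sum_le_sum fun i _ => h1 i).trans (le_of_eq ?_)
    rw [← Finset.sum_div, Finset.sum_add_distrib, ← Finset.mul_sum]
    simp only [Finset.sum_const, Finset.card_univ, Fintype.card_fin, nsmul_eq_mul, chi]
    field_simp
  have h3 : 0 ≤ ε + ε⁻¹ * chi (nr u) := by have := chi_nonneg (nr u); positivity
  have h4 : 1 / 2 * ∑ i, |u i / (∑ j, u j) - 1 / q| ≤ ε + ε⁻¹ * chi (nr u) := by linarith
  have := mul_le_mul_of_nonneg_left h4 hm
  linarith

lemma adv_le (hq : 2 ≤ q) {n : ℕ} (h : IsSys (V q lam off n)) {ε : ℝ} (hε : 0 < ε) :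
    adv q lam off n ≤ ENNReal.ofReal (ε + ε⁻¹ * E (V q lam off n) chi) := by
  have s := ((h.hasSum_mean hq).mul_right ε).add
    ((h.hasSum hq (bd_of_cont cont_chi)).mul_left ε⁻¹)
  rw [one_mul] at s
  rw [← s.tsum_eq, ENNReal.ofReal_tsum_of_nonneg _ s.summable]
  · exact ENNReal.tsum_le_tsum fun o => ENNReal.ofReal_le_ofReal (tv_le hq (h.nn o) hε)
  · intro o
    have := mean_nonneg (h.nn o)
    have := chi_nonneg (nr (V q lam off n o))
    rw [hom_eq]; positivity

end tree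

end Tr

open Tr in
theorem tree : StmtTree := by
  intro q hq C lam h0 h1 off d o0 o1 od ⟨k0, hk, hk0⟩ hd
  have hs := fun n => (V_sys hq C h0 h1 o0 o1 n).1
  have x0 : ∀ n, 0 ≤ E (V q lam off n) chi := fun n =>
    (hs n).E_nonneg hq (f := chi) (fun a _ => chi_nonneg a)
  have st := V_step hq C h0 h1 o0 o1 od hk
  have hx : Tendsto (fun n => E (V q lam off n) chi) atTop (𝓝 0) := by
    rcases h0.eq_or_lt with h | h
    · rw [← tendsto_add_atTop_iff_nat 1]
      have : ∀ n, E (V q lam off (n + 1)) chi = 0 := fun n =>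
        le_antisymm (by simpa [← h] using st n) (x0 _)
      simp [this]
    · have hδ := C.hδ
      refine tendsto_zero_of_step (c := off k0 * C.δ * lam ^ 6) (by positivity) x0 fun n => ?_
      have := mul_le_mul_of_nonneg_right hd (x0 n)
      linarith [st n]
  set x := fun n => E (V q lam off n) chi with hxd
  have hg : Tendsto (fun n : ℕ => 2 * √(x n) + 1 / ((n : ℝ) + 1)) atTop (𝓝 0) := by
    have := (hx.sqrt.const_mul 2).add (tendsto_one_div_add_atTop_nhds_zero_nat (𝕜 := ℝ))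
    simpa using this
  have hg' := ENNReal.tendsto_ofReal hg
  rw [ENNReal.ofReal_zero] at hg'
  refine tendsto_of_tendsto_of_tendsto_of_le_of_le tendsto_const_nhds hg'
    (fun n => zero_le) fun n => ?_
  have hp : (0 : ℝ) < 1 / ((n : ℝ) + 1) := by positivity
  have hr := Real.sqrt_nonneg (x n)
  have hε : 0 < √(x n) + 1 / ((n : ℝ) + 1) := by linarith
  refine (adv_le hq (hs n) hε).trans (ENNReal.ofReal_le_ofReal ?_)
  have h2 : (√(x n) + 1 / ((n : ℝ) + 1))⁻¹ * x n ≤ √(x n) := by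
    rw [inv_mul_le_iff₀ hε]
    have := Real.mul_self_sqrt (x0 n)
    nlinarith
  change _ + _ * x n ≤ _
  linarith

theorem offs : StmtOff := by
  refine ⟨fun d hd => ⟨fun k => ?_, ?_, ?_, d, hd, by simp [offReg]⟩,
    fun d hd => ⟨fun k => ?_, ?_, ?_, 2, le_rfl, ?_⟩⟩
  · unfold offReg; split_ifs <;> simp
  · simpa [offReg] using hasSum_single (f := offReg d) d (fun k hk => by simp [offReg, hk])
  · simpa [offReg] using hasSum_single (f := fun k : ℕ => (k : ℝ) * offReg d k) d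
      (fun k hk => by simp [offReg, hk])
  · unfold offPoi; positivity
  · have h := (NormedSpace.expSeries_div_hasSum_exp d).mul_left (Real.exp (-d))
    rw [← Real.exp_eq_exp_ℝ, ← Real.exp_add, neg_add_cancel, Real.exp_zero] at h
    have e : offPoi d = fun i => Real.exp (-d) * (d ^ i / (i.factorial : ℝ)) := by
      funext i; rw [offPoi, mul_div_assoc]
    rw [e]; exact h
  · have h := (NormedSpace.expSeries_div_hasSum_exp d).mul_left (Real.exp (-d) * d)
    rw [← Real.exp_eq_exp_ℝ, mul_right_comm, ← Real.exp_add, neg_add_cancel, Real.exp_zero,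
      one_mul] at h
    rw [← hasSum_nat_add_iff' 1]
    simp only [Finset.range_one, Finset.sum_singleton, Nat.cast_zero, zero_mul, sub_zero]
    have e : (fun k : ℕ => ((k + 1 : ℕ) : ℝ) * offPoi d (k + 1)) =
        fun i => Real.exp (-d) * d * (d ^ i / (i.factorial : ℝ)) := by
      funext k
      unfold offPoi
      rw [Nat.factorial_succ]
      push_cast
      field_simp
      ring
    rw [e]; exact h
  · unfold offPoi; positivity

end Vale.Agent.P154
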